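import Vale.Agent.P092.H418.Model
import Vale.Agent.P092.H245.Hcomm
import Vale.Agent.P092.H184.Embed

/-!
# The corner model: commutation, irreducibility, finite stabilisers
-/

namespace Vale.Agent.P092

open scoped InnerProductSpace ENNReal ComplexConjugate
open ContinuousLinearMap InnerProductSpace

noncomputable section

variable {Γ Λ : Type} [Group Γ] [Group Λ] {n : ℕ} (Φ : AmpIso Γ Λ n)

namespace AmpIso

/-- The action of `L(Λ)` as a `*`-homomorphism. -/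
def actHom : LG Λ →⋆ₙₐ[ℂ] (Φ.HH →L[ℂ] Φ.HH) where
  toFun := Φ.act
  map_smul' := Φ.act_smul
  map_zero' := by
    have h := Φ.act_smul 0 0
    rw [zero_smul] at h
    rw [h]
    exact zero_smul ℂ (Φ.act 0)
  map_add' := Φ.act_add
  map_mul' := Φ.act_mul
  map_star' x := (Φ.adjoint_act x).symm

@[simp]
theorem actHom_apply (x : LG Λ) : Φ.actHom x = Φ.act x := rfl

/-- An operator on the corner space commuting with the right regular representation is given by an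
element of `L(Λ)`. -/
theorem exists_act {B : Φ.HH →L[ℂ] Φ.HH} (hB : ∀ g, Commute B (Φ.Urep g : Φ.HH →L[ℂ] Φ.HH)) :
    ∃ c : LG Λ, Φ.act c = B := by
  set T : KK Γ n →L[ℂ] KK Γ n := Φ.HH.subtypeL ∘L B ∘L Φ.pr with hT
  obtain ⟨y, hy⟩ := exists_mat (T := T) (fun g => by
    refine ContinuousLinearMap.ext fun ξ => ?_
    change ((B (Φ.pr (RR n g ξ)) : Φ.HH) : KK Γ n) = RR n g ((B (Φ.pr ξ) : Φ.HH) : KK Γ n)
    rw [pr_RR, commute_apply (hB g), coe_Urep])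
  obtain ⟨c, hc⟩ := Φ.exists_of_corner (y := y) (by
    apply mat_injective
    rw [mat_mul, mat_mul, hy]
    refine ContinuousLinearMap.ext fun ξ => ?_
    change Φ.P ((B (Φ.pr (Φ.P ξ)) : Φ.HH) : KK Γ n) = ((B (Φ.pr ξ) : Φ.HH) : KK Γ n)
    have h : Φ.pr (Φ.P ξ) = Φ.pr ξ := Subtype.ext (Φ.P_P ξ)
    rw [P_coe, h])
  refine ⟨c, ContinuousLinearMap.ext fun v => Subtype.ext ?_⟩
  rw [coe_act, hc, hy]
  change ((B (Φ.pr (v : KK Γ n)) : Φ.HH) : KK Γ n) = _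
  rw [pr_coe]

/-- The trace formula in terms of the frame vectors. -/
theorem trace_inner {t : ℝ} (htr : ∀ x : LG Λ, ∑ i, tau (Φ.toHom x i i) = (t : ℂ) * tau x)
    (y y' : LG Λ) : ∑ i, ⟪Φ.actHom y (Φ.zv i), Φ.actHom y' (Φ.zv i)⟫_ℂ =
    t * ⟪(y : ell2 Λ →L[ℂ] ell2 Λ) (delta 1), (y' : ell2 Λ →L[ℂ] ell2 Λ) (delta 1)⟫_ℂ := by
  have h1 : ∀ i, ⟪Φ.actHom y (Φ.zv i), Φ.actHom y' (Φ.zv i)⟫_ℂ =
      ⟪Φ.zv i, Φ.act (star y * y') (Φ.zv i)⟫_ℂ := by
    intro i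
    rw [actHom_apply, actHom_apply, ← adjoint_inner_right, adjoint_act, act_mul]
    rfl
  simp only [h1]
  rw [← sum_tau_eq, htr]
  congr 1
  rw [tau]
  change ⟪delta 1, adjoint (y : ell2 Λ →L[ℂ] ell2 Λ) ((y' : ell2 Λ →L[ℂ] ell2 Λ) (delta 1))⟫_ℂ = _
  rw [adjoint_inner_right]

/-- Commutation: `U(Γ)' ⊆ V(Λ)''`. -/
theorem hcomm {t : ℝ} (htr : ∀ x : LG Λ, ∑ i, tau (Φ.toHom x i i) = (t : ℂ) * tau x)
    (B x : Φ.HH →L[ℂ] Φ.HH) (hB : ∀ g, Commute B (Φ.Urep g : Φ.HH →L[ℂ] Φ.HH))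
    (hx : ∀ s, Commute x (Φ.Vrep s : Φ.HH →L[ℂ] Φ.HH)) : Commute B x := by
  obtain ⟨c, rfl⟩ := Φ.exists_act hB
  refine (H245.commute_of_trace Φ.Vrep Φ.actHom (fun s => rfl) Φ.zv t (Φ.trace_inner htr)
    (Set.range fun g => (Φ.Urep g : Φ.HH →L[ℂ] Φ.HH)) ?_ ?_ x hx c).symm
  · rintro _ ⟨g, rfl⟩ y
    exact Φ.commute_U_act g y
  · intro v hv
    exact Φ.eq_zero_of_inner_zv fun g i => hv _ ⟨g, rfl⟩ i

omit [Group Γ] in
theorem delta_ne_zero (g : Γ) : (delta g : ell2 Γ) ≠ 0 := by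
  intro h
  have h1 := delta_apply_self g
  rw [h] at h1
  exact zero_ne_one h1

instance : Nontrivial (LG Λ) := by
  refine ⟨1, 0, fun h => delta_ne_zero (1 : Λ) ?_⟩
  exact congrArg (fun x : LG Λ => (x : ell2 Λ →L[ℂ] ell2 Λ) (delta 1)) h

instance : Nontrivial Φ.HH := by
  by_contra hcon
  rw [not_nontrivial_iff_subsingleton] at hcon
  exact one_ne_zero (Φ.act_injective (a₁ := 1) (a₂ := 0)
    (ContinuousLinearMap.ext fun v => Subsingleton.elim _ _))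

/-- Irreducibility for the corner model. -/
theorem irr {ι : Type} (b : HilbertBasis ι ℂ Φ.HH) (hicc : IsICC Γ) {t : ℝ}
    (htr : ∀ x : LG Λ, ∑ i, tau (Φ.toHom x i i) = (t : ℂ) * tau x) : Irr b Φ.Urep Φ.Vrep :=
  irr_of_embedding b Φ.HH.subtypeₗᵢ Φ.Urep Φ.Vrep (KKbasis Γ n) (RR n) RR_KKbasis
    (fun _ _ => rfl) hicc (Φ.hcomm htr)

/-- The Bessel family `a_i`. -/
theorem isBFrame_zv {t : ℝ} (ht : 0 < t)
    (htr : ∀ x : LG Λ, ∑ i, tau (Φ.toHom x i i) = (t : ℂ) * tau x) :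
    IsBFrame Φ.Vrep (fun i => (((√(t * n))⁻¹ : ℝ) : ℂ) • Φ.zv i) := by
  have h := H245.isBFrame_of_trace Φ.Vrep Φ.actHom (fun s => rfl) Φ.zv t (Φ.trace_inner htr) ht
  simpa only [Fintype.card_fin] using h

/-- The stabiliser of a line under the right regular representation is finite. -/
theorem finite_stab (z : Φ.HH) (hz : z ≠ 0) :
    {g : Γ | ∃ c : ℂ, (Φ.Urep g : Φ.HH →L[ℂ] Φ.HH) z = c • z}.Finite := by
  obtain ⟨i, x, hix⟩ : ∃ (i : Fin n) (x : Γ), ((z : KK Γ n) i : ell2 Γ) x ≠ 0 := by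
    by_contra hcon
    push Not at hcon
    apply hz
    apply Subtype.ext
    ext1
    funext i
    ext x
    exact hcon i x
  set ξ : ell2 Γ := (z : KK Γ n) i with hξ
  have hfin : {y : Γ | ‖ξ x‖ ≤ ‖ξ y‖}.Finite := by
    have h1 : Summable fun y => ‖ξ y‖ ^ (2 : ℝ≥0∞).toReal := (lp.hasSum_norm (by simp) ξ).summable
    have h2 : Filter.Tendsto (fun y => ‖ξ y‖ ^ (2 : ℝ≥0∞).toReal) Filter.cofinite (nhds 0) :=
      h1.tendsto_cofinite_zero
    have h3 : (0 : ℝ) < ‖ξ x‖ ^ (2 : ℝ≥0∞).toReal := by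
      have : 0 < ‖ξ x‖ := norm_pos_iff.2 hix
      positivity
    have h4 := h2.eventually (gt_mem_nhds h3)
    rw [Filter.eventually_cofinite] at h4
    refine h4.subset fun y hy => ?_
    simp only [Set.mem_ofPred_eq, not_lt] at hy ⊢
    gcongr
  refine (hfin.preimage (f := fun g : Γ => x * g)
    (fun a _ b _ hab => mul_left_cancel hab)).subset fun g hg => ?_
  obtain ⟨c, hc⟩ := hg
  have hc1 : ‖c‖ = 1 := by
    have h1 := rep_norm Φ.Urep g z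
    rw [hc, norm_smul] at h1
    have h2 : ‖z‖ ≠ 0 := norm_ne_zero_iff.2 hz
    exact (mul_eq_right₀ h2).1 h1
  have h2 : ξ (x * g) = c * ξ x := by
    have h3 := congrArg (fun v : Φ.HH => ((v : KK Γ n) i : ell2 Γ) x) hc
    simp only [coe_Urep, RR_apply, rreg_apply] at h3
    exact h3
  change ‖ξ x‖ ≤ ‖ξ (x * g)‖
  rw [h2, norm_mul, hc1, one_mul]

end AmpIso

end

end Vale.Agent.P092
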