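import Vale.Agent.P092.H418.Mat

/-!
# The concrete model of an amplified isomorphism

For `Φ : AmpIso Γ Λ n`, the Hilbert space `HH Φ = p ℓ²(Γ)^n`, with the right regular
representation `Urep` of `Γ` and the representation `Vrep` of `Λ` given by `Φ(v_s)`.
-/

namespace Vale.Agent.P092

open scoped InnerProductSpace ENNReal ComplexConjugate
open ContinuousLinearMap InnerProductSpace

noncomputable section

section general

variable {K : Type} [NormedAddCommGroup K] [InnerProductSpace ℂ K] [CompleteSpace K]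

theorem adjoint_restrict {W : Submodule ℂ K} [CompleteSpace W] {T S : K →L[ℂ] K}
    (hT : Set.MapsTo T W W) (hS : Set.MapsTo S W W) (h : adjoint T = S) :
    adjoint (T.restrict hT) = S.restrict hS := by
  refine ContinuousLinearMap.ext fun w => ext_inner_left ℂ fun v => ?_
  rw [adjoint_inner_right]
  change ⟪T (v : K), (w : K)⟫_ℂ = ⟪(v : K), S (w : K)⟫_ℂ
  rw [← h, adjoint_inner_right]

end general

variable {Γ Λ : Type} [Group Γ] [Group Λ] {n : ℕ} (Φ : AmpIso Γ Λ n)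

namespace AmpIso

theorem mul_p (x : LG Λ) : Φ.toHom x * Φ.p = Φ.toHom x := by
  have h : Φ.toHom x ∈ Set.range Φ.toHom := ⟨x, rfl⟩
  rw [Φ.range_eq] at h
  have h' : Φ.p * Φ.toHom x * Φ.p = Φ.toHom x := h
  calc Φ.toHom x * Φ.p = Φ.p * Φ.toHom x * Φ.p * Φ.p := by rw [h']
    _ = Φ.p * Φ.toHom x * (Φ.p * Φ.p) := by rw [mul_assoc]
    _ = Φ.p * Φ.toHom x * Φ.p := by rw [Φ.isStarProjection.isIdempotentElem.eq]
    _ = Φ.toHom x := h'

theorem p_mul (x : LG Λ) : Φ.p * Φ.toHom x = Φ.toHom x := by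
  have h : Φ.toHom x ∈ Set.range Φ.toHom := ⟨x, rfl⟩
  rw [Φ.range_eq] at h
  have h' : Φ.p * Φ.toHom x * Φ.p = Φ.toHom x := h
  calc Φ.p * Φ.toHom x = Φ.p * (Φ.p * Φ.toHom x * Φ.p) := by rw [h']
    _ = (Φ.p * Φ.p) * Φ.toHom x * Φ.p := by simp only [mul_assoc]
    _ = Φ.p * Φ.toHom x * Φ.p := by rw [Φ.isStarProjection.isIdempotentElem.eq]
    _ = Φ.toHom x := h'

theorem exists_of_corner {y : Matrix (Fin n) (Fin n) (LG Γ)} (hy : Φ.p * y * Φ.p = y) :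
    ∃ x, Φ.toHom x = y := by
  have : y ∈ Set.range Φ.toHom := by rw [Φ.range_eq]; exact hy
  exact this

theorem map_one_eq : Φ.toHom 1 = Φ.p := by
  obtain ⟨q, hq⟩ := Φ.exists_of_corner (y := Φ.p) (by
    rw [Φ.isStarProjection.isIdempotentElem.eq, Φ.isStarProjection.isIdempotentElem.eq])
  calc Φ.toHom 1 = Φ.p * Φ.toHom 1 := (Φ.p_mul 1).symm
    _ = Φ.toHom q * Φ.toHom 1 := by rw [hq]
    _ = Φ.toHom (q * 1) := (map_mul _ _ _).symm
    _ = Φ.p := by rw [mul_one, hq]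

/-- The projection `p` as an operator on `ℓ²(Γ)^n`. -/
def P : KK Γ n →L[ℂ] KK Γ n := mat Φ.p

theorem P_P (ξ : KK Γ n) : Φ.P (Φ.P ξ) = Φ.P ξ := by
  rw [P, ← comp_apply, ← mat_mul, Φ.isStarProjection.isIdempotentElem.eq]

theorem adjoint_P : adjoint Φ.P = Φ.P := by
  rw [P, adjoint_mat]
  congr 1
  exact Φ.isStarProjection.isSelfAdjoint.star_eq

theorem P_RR (g : Γ) (ξ : KK Γ n) : Φ.P (RR n g ξ) = RR n g (Φ.P ξ) := by
  rw [P, ← comp_apply, mat_RR, comp_apply]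

/-- The Hilbert space `p ℓ²(Γ)^n`. -/
def HH : Submodule ℂ (KK Γ n) where
  carrier := {ξ | Φ.P ξ = ξ}
  add_mem' := fun {a b} ha hb => by
    change Φ.P (a + b) = a + b
    rw [map_add]
    exact congrArg₂ _ ha hb
  zero_mem' := map_zero _
  smul_mem' := fun c {a} ha => by
    change Φ.P (c • a) = c • a
    rw [map_smul]
    exact congrArg _ ha

theorem mem_HH {ξ : KK Γ n} : ξ ∈ Φ.HH ↔ Φ.P ξ = ξ := Iff.rfl

instance : CompleteSpace Φ.HH :=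
  (isClosed_eq Φ.P.continuous continuous_id).completeSpace_coe

theorem P_coe (v : Φ.HH) : Φ.P (v : KK Γ n) = v := v.2

/-- The orthogonal projection onto `p ℓ²(Γ)^n`, as a map to this space. -/
def pr : KK Γ n →L[ℂ] Φ.HH := Φ.P.codRestrict Φ.HH fun ξ => Φ.P_P ξ

@[simp]
theorem coe_pr (ξ : KK Γ n) : (Φ.pr ξ : KK Γ n) = Φ.P ξ := rfl

theorem inner_pr_left (ξ : KK Γ n) (v : Φ.HH) : ⟪Φ.pr ξ, v⟫_ℂ = ⟪ξ, (v : KK Γ n)⟫_ℂ := by
  change ⟪Φ.P ξ, (v : KK Γ n)⟫_ℂ = _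
  rw [← adjoint_inner_right, adjoint_P, P_coe]

theorem inner_pr_right (ξ : KK Γ n) (v : Φ.HH) : ⟪v, Φ.pr ξ⟫_ℂ = ⟪(v : KK Γ n), ξ⟫_ℂ := by
  rw [← inner_conj_symm v, inner_pr_left, inner_conj_symm]

theorem pr_coe (v : Φ.HH) : Φ.pr (v : KK Γ n) = v := Subtype.ext (Φ.P_coe v)

theorem RR_mapsTo (g : Γ) : Set.MapsTo (RR n g) Φ.HH Φ.HH := fun ξ hξ => by
  rw [SetLike.mem_coe, mem_HH] at hξ ⊢
  rw [P_RR, hξ]

theorem mat_mapsTo (x : LG Λ) : Set.MapsTo (mat (Φ.toHom x)) Φ.HH Φ.HH := fun ξ _ => by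
  rw [SetLike.mem_coe, mem_HH]
  rw [P, ← comp_apply, ← mat_mul, p_mul]

/-- The action of `L(Λ)` on `p ℓ²(Γ)^n`. -/
def act (x : LG Λ) : Φ.HH →L[ℂ] Φ.HH := (mat (Φ.toHom x)).restrict (Φ.mat_mapsTo x)

@[simp]
theorem coe_act (x : LG Λ) (v : Φ.HH) :
    ((Φ.act x v : Φ.HH) : KK Γ n) = mat (Φ.toHom x) (v : KK Γ n) := rfl

theorem act_mul (x y : LG Λ) : Φ.act (x * y) = Φ.act x * Φ.act y := by
  refine ContinuousLinearMap.ext fun v => Subtype.ext ?_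
  rw [coe_act, map_mul, mat_mul]
  rfl

theorem act_one : Φ.act 1 = 1 := by
  refine ContinuousLinearMap.ext fun v => Subtype.ext ?_
  rw [coe_act, map_one_eq]
  exact Φ.P_coe v

theorem act_add (x y : LG Λ) : Φ.act (x + y) = Φ.act x + Φ.act y := by
  refine ContinuousLinearMap.ext fun v => Subtype.ext ?_
  rw [coe_act, map_add, mat_add]
  rfl

theorem act_smul (c : ℂ) (x : LG Λ) : Φ.act (c • x) = c • Φ.act x := by
  refine ContinuousLinearMap.ext fun v => Subtype.ext ?_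
  rw [coe_act, map_smul, mat_smul]
  rfl

theorem adjoint_act (x : LG Λ) : adjoint (Φ.act x) = Φ.act (star x) := by
  refine adjoint_restrict _ _ ?_
  rw [adjoint_mat, map_star]
  rfl

theorem act_injective : Function.Injective Φ.act := by
  intro x y h
  apply Φ.injective
  apply mat_injective
  refine ContinuousLinearMap.ext fun ξ => ?_
  have h1 : ∀ z : LG Λ, mat (Φ.toHom z) ξ = (Φ.act z (Φ.pr ξ) : KK Γ n) := fun z => by
    rw [coe_act, coe_pr, P, ← comp_apply, ← mat_mul, mul_p]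
  rw [h1, h1, h]

/-- The right regular representation of `Γ` on `p ℓ²(Γ)^n`. -/
def Urep : Γ →* unitary (Φ.HH →L[ℂ] Φ.HH) :=
  mkRep (fun g => (RR n g).restrict (Φ.RR_mapsTo g))
    (by
      refine ContinuousLinearMap.ext fun v => Subtype.ext ?_
      change RR n (1 : Γ) (v : KK Γ n) = v
      rw [RR_one]
      rfl)
    (fun g h => by
      refine ContinuousLinearMap.ext fun v => Subtype.ext ?_
      change RR n (g * h) (v : KK Γ n) = _
      rw [RR_mul]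
      rfl)
    (fun g => adjoint_restrict _ _ (adjoint_RR g))

@[simp]
theorem coe_Urep (g : Γ) (v : Φ.HH) :
    (((Φ.Urep g : Φ.HH →L[ℂ] Φ.HH) v : Φ.HH) : KK Γ n) = RR n g (v : KK Γ n) := rfl

/-- The representation of `Λ` on `p ℓ²(Γ)^n` through `Φ(v_s)`. -/
def Vrep : Λ →* unitary (Φ.HH →L[ℂ] Φ.HH) :=
  mkRep (fun s => Φ.act (u s)) (by rw [u_one, act_one]) (fun s t => by rw [u_mul, act_mul])
    (fun s => by rw [adjoint_act, star_u])

theorem Vrep_coe (s : Λ) : (Φ.Vrep s : Φ.HH →L[ℂ] Φ.HH) = Φ.act (u s) := rfl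

theorem commute_U_act (g : Γ) (x : LG Λ) : Commute (Φ.Urep g : Φ.HH →L[ℂ] Φ.HH) (Φ.act x) := by
  refine ContinuousLinearMap.ext fun v => Subtype.ext ?_
  change RR n g (mat (Φ.toHom x) (v : KK Γ n)) = mat (Φ.toHom x) (RR n g (v : KK Γ n))
  rw [← comp_apply, ← mat_RR, comp_apply]

theorem commute_U_V (g : Γ) (s : Λ) :
    Commute (Φ.Urep g : Φ.HH →L[ℂ] Φ.HH) (Φ.Vrep s : Φ.HH →L[ℂ] Φ.HH) := Φ.commute_U_act g _

theorem pr_RR (g : Γ) (ξ : KK Γ n) : Φ.pr (RR n g ξ) = (Φ.Urep g : Φ.HH →L[ℂ] Φ.HH) (Φ.pr ξ) :=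
  Subtype.ext (Φ.P_RR g ξ)

/-- The frame vectors `z_i = p (δ_e ⊗ e_i)`. -/
def zv (i : Fin n) : Φ.HH := Φ.pr (inc i (delta 1))

theorem U_zv (g : Γ) (i : Fin n) :
    (Φ.Urep g : Φ.HH →L[ℂ] Φ.HH) (Φ.zv i) = Φ.pr (inc i (delta g⁻¹)) := by
  rw [zv, ← pr_RR, RR_inc, rreg_delta, one_mul]

theorem inner_U_zv (g : Γ) (i : Fin n) (v : Φ.HH) :
    ⟪(Φ.Urep g : Φ.HH →L[ℂ] Φ.HH) (Φ.zv i), v⟫_ℂ = ((v : KK Γ n) i : ell2 Γ) g⁻¹ := by
  rw [U_zv, inner_pr_left, inner_inc_left, inner_delta]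

theorem tsum_KK (ξ : KK Γ n) : ∑' p : Fin n × Γ, ‖(ξ p.1 : ell2 Γ) p.2⁻¹‖ₑ ^ 2 = ‖ξ‖ₑ ^ 2 := by
  rw [ENNReal.tsum_prod', ← lp_enorm_sq ξ]
  refine tsum_congr fun i => ?_
  rw [← lp_enorm_sq (ξ i)]
  exact (Equiv.inv Γ).tsum_eq fun g => ‖(ξ i : ell2 Γ) g‖ₑ ^ 2

/-- The vectors `z_i` generate a Parseval frame under `U(Γ)`. -/
theorem isFrame_zv : IsFrame Φ.Urep Φ.zv := by
  intro v
  calc ∑' p : Fin n × Γ, ‖⟪(Φ.Urep p.2 : Φ.HH →L[ℂ] Φ.HH) (Φ.zv p.1), v⟫_ℂ‖ₑ ^ 2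
      = ∑' p : Fin n × Γ, ‖((v : KK Γ n) p.1 : ell2 Γ) p.2⁻¹‖ₑ ^ 2 :=
        tsum_congr fun p => by rw [inner_U_zv]
    _ = ‖(v : KK Γ n)‖ₑ ^ 2 := tsum_KK _
    _ = ‖v‖ₑ ^ 2 := rfl

theorem eq_zero_of_inner_zv {v : Φ.HH}
    (h : ∀ g i, ⟪(Φ.Urep g : Φ.HH →L[ℂ] Φ.HH) (Φ.zv i), v⟫_ℂ = 0) : v = 0 := by
  apply Subtype.ext
  ext1
  funext i
  ext g
  have := h g⁻¹ i
  rw [inner_U_zv, inv_inv] at this
  exact this

/-- Coefficients as inner products. -/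
theorem coef_eq_inner (x : LG Λ) (i j : Fin n) (g : Γ) :
    coef (Φ.toHom x i j) g =
      ⟪(Φ.Urep g⁻¹ : Φ.HH →L[ℂ] Φ.HH) (Φ.zv i), Φ.act x (Φ.zv j)⟫_ℂ := by
  rw [inner_U_zv, inv_inv, coe_act, zv, coe_pr, P, ← comp_apply, ← mat_mul, mul_p, mat_inc]
  rfl

theorem sum_tau_eq (x : LG Λ) :
    ∑ i, tau (Φ.toHom x i i) = ∑ i, ⟪Φ.zv i, Φ.act x (Φ.zv i)⟫_ℂ := by
  refine Finset.sum_congr rfl fun i _ => ?_
  have h := Φ.coef_eq_inner x i i 1
  rw [inv_one] at h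
  rw [tau, inner_delta]
  change coef (Φ.toHom x i i) 1 = _
  rw [h]
  congr 1
  rw [map_one]
  rfl

/-- The Hilbert basis `δ_h ⊗ e_i` of `ℓ²(Γ)^n`. -/
def KKbasis (Γ : Type) (n : ℕ) : HilbertBasis (Γ × Fin n) ℂ (KK Γ n) :=
  HilbertBasis.mk (v := fun p : Γ × Fin n => inc p.2 (delta p.1))
    (by
      classical
      rw [orthonormal_iff_ite]
      rintro ⟨g, i⟩ ⟨h, j⟩
      rw [inner_inc_left, inc_apply]
      by_cases hij : i = j
      · subst hij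
        rw [if_pos rfl, inner_delta, delta_apply]
        by_cases hgh : g = h
        · subst hgh; simp
        · simp [hgh]
      · rw [if_neg hij, inner_zero_right, if_neg]
        intro h
        exact hij (Prod.mk.inj h).2)
    (by
      rw [top_le_iff, Submodule.topologicalClosure_eq_top_iff, Submodule.eq_bot_iff]
      intro ξ hξ
      ext1
      funext i
      ext g
      rw [← inner_delta, ← inner_inc_left]
      exact (Submodule.mem_orthogonal _ _).1 hξ _ (Submodule.subset_span ⟨(g, i), rfl⟩))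

omit [Group Γ] in
@[simp]
theorem KKbasis_apply (g : Γ) (i : Fin n) : KKbasis Γ n (g, i) = inc i (delta g) := by
  rw [KKbasis, HilbertBasis.coe_mk]

theorem RR_KKbasis (g h : Γ) (i : Fin n) :
    RR n g (KKbasis Γ n (h, i)) = KKbasis Γ n (h * g⁻¹, i) := by
  rw [KKbasis_apply, KKbasis_apply, RR_inc, rreg_delta]

end AmpIso

end

end Vale.Agent.P092
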