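import Vale.Agent.P092.H418.Mat
import Vale.Agent.P092.H567.Group

/-!
# The isometry given by an orbit that is an orthonormal basis
-/

namespace Vale.Agent.P092

open scoped InnerProductSpace ENNReal ComplexConjugate
open ContinuousLinearMap InnerProductSpace

noncomputable section

variable {Γ Λ : Type} [Group Γ] [Group Λ] {H : Type} [NormedAddCommGroup H]
  [InnerProductSpace ℂ H] [CompleteSpace H]
  {U : Γ →* unitary (H →L[ℂ] H)} {V : Λ →* unitary (H →L[ℂ] H)}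
  {z : H} {δ : Γ ≃* Λ} {χ : Γ →* Circle} (hz : ‖z‖ = 1)
  (hU : ∀ g, (U g : H →L[ℂ] H) z = (χ g : ℂ) • (V (δ g)⁻¹ : H →L[ℂ] H) z)
  (horth : ∀ s : Λ, s ≠ 1 → ⟪z, (V s : H →L[ℂ] H) z⟫_ℂ = 0)
  (htot : ∀ v : H, (∀ s : Λ, ⟪(V s : H →L[ℂ] H) z, v⟫_ℂ = 0) → v = 0)

include hz hU horth in
theorem orthonormal_orbit : Orthonormal ℂ fun h : Γ => (U h⁻¹ : H →L[ℂ] H) z := by
  classical
  rw [orthonormal_iff_ite]
  intro g h
  rw [rep_inner_left, inv_inv, ← rep_mul_apply]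
  by_cases hgh : g = h
  · rw [if_pos hgh, hgh, mul_inv_cancel, rep_one_apply, inner_self_eq_norm_sq_to_K (𝕜 := ℂ), hz]
    simp
  · rw [if_neg hgh, hU, inner_smul_right, horth, mul_zero]
    intro h1
    rw [inv_eq_one, ← map_one δ, δ.injective.eq_iff] at h1
    exact hgh (mul_inv_eq_one.1 h1)

include hU htot in
theorem span_orbit : ⊤ ≤ (Submodule.span ℂ
    (Set.range fun h : Γ => (U h⁻¹ : H →L[ℂ] H) z)).topologicalClosure := by
  rw [top_le_iff, Submodule.topologicalClosure_eq_top_iff, Submodule.eq_bot_iff]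
  intro v hv
  refine htot v fun s => ?_
  obtain ⟨g, rfl⟩ := δ.surjective s
  have h1 := (Submodule.mem_orthogonal _ _).1 hv _ (Submodule.subset_span ⟨g, rfl⟩)
  simp only at h1
  rw [hU, inner_smul_left, map_inv δ, inv_inv] at h1
  rcases mul_eq_zero.1 h1 with h2 | h2
  · exact absurd h2 (by simp)
  · exact h2

include hU in
theorem V_orbit (g : Γ) : (V (δ g) : H →L[ℂ] H) z = (χ g : ℂ) • (U g⁻¹ : H →L[ℂ] H) z := by
  rw [hU, map_inv δ, inv_inv, smul_smul, map_inv χ, ← Circle.coe_mul, mul_inv_cancel,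
    Circle.coe_one, one_smul]

include hz hU horth htot in
/-- The orbit as a Hilbert basis, and the corresponding unitary operator. -/
theorem exists_orbit_isometry : ∃ (bz : HilbertBasis Γ ℂ H) (R : ell2 Γ →L[ℂ] H),
    (∀ h, bz h = (U h⁻¹ : H →L[ℂ] H) z) ∧ (∀ h, R (delta h) = (U h⁻¹ : H →L[ℂ] H) z) ∧
      adjoint R ∘L R = 1 ∧ R ∘L adjoint R = 1 := by
  set bz : HilbertBasis Γ ℂ H :=
    HilbertBasis.mk (orthonormal_orbit hz hU horth) (span_orbit hU htot) with hbz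
  have hbz' : ∀ h, bz h = (U h⁻¹ : H →L[ℂ] H) z := fun h => by
    rw [hbz, HilbertBasis.coe_mk]
  let R : ell2 Γ →L[ℂ] H := bz.repr.symm.toContinuousLinearEquiv.toContinuousLinearMap
  have hRR : adjoint R ∘L R = 1 := by
    refine (ContinuousLinearMap.norm_map_iff_adjoint_comp_self R).1 fun x => ?_
    exact bz.repr.symm.norm_map x
  refine ⟨bz, R, hbz', ?_, hRR, ?_⟩
  · intro h
    rw [← hbz']
    change bz.repr.symm (delta h) = bz h
    rw [LinearIsometryEquiv.symm_apply_eq]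
    apply eq_of_inner_delta
    intro g
    rw [inner_delta, inner_delta, bz.repr_apply_apply]
    classical
    rw [orthonormal_iff_ite.1 bz.orthonormal g h, delta_apply]
  · have h1 : Function.Surjective R := bz.repr.symm.surjective
    refine ContinuousLinearMap.ext fun v => ?_
    obtain ⟨x, rfl⟩ := h1 v
    change R ((adjoint R ∘L R) x) = R x
    rw [hRR]
    rfl

include hU in
theorem V_R_orbit (hUV : ∀ g s, Commute (U g : H →L[ℂ] H) (V s : H →L[ℂ] H))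
    (R : ell2 Γ →L[ℂ] H) (hR : ∀ h, R (delta h) = (U h⁻¹ : H →L[ℂ] H) z) (g h : Γ) :
    (V (δ g) : H →L[ℂ] H) (R (delta h)) = (χ g : ℂ) • R (delta (g * h)) := by
  rw [hR, hR, ← commute_apply (hUV h⁻¹ (δ g)), V_orbit hU, map_smul, ← rep_mul_apply,
    mul_inv_rev]

theorem U_R_orbit (R : ell2 Γ →L[ℂ] H) (hR : ∀ h, R (delta h) = (U h⁻¹ : H →L[ℂ] H) z)
    (g h : Γ) : R (delta (h * g⁻¹)) = (U g : H →L[ℂ] H) (R (delta h)) := by
  rw [hR, hR, ← rep_mul_apply, mul_inv_rev, inv_inv]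

/-- The frame sum of a Parseval frame of orbits is the number `‖z‖² = 1`. -/
theorem sum_frame_norm {κ : Type} [Fintype κ] {f : κ → H} (hf : IsFrame U f)
    (bz : HilbertBasis Γ ℂ H) (hbz : ∀ h, bz h = (U h⁻¹ : H →L[ℂ] H) z) (hz : ‖z‖ = 1) :
    ∑ i, ‖f i‖ ^ 2 = 1 := by
  have h4 : ∑ i, ‖f i‖ₑ ^ 2 = 1 := by
    have h5 : ∀ i, ‖f i‖ₑ ^ 2 = ∑' g : Γ, ‖⟪(U g : H →L[ℂ] H) (f i), z⟫_ℂ‖ₑ ^ 2 := by
      intro i
      rw [← parseval_hilbertBasis bz (f i)]
      refine tsum_congr fun g => ?_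
      rw [hbz, rep_inner_left, inv_inv, enorm_inner_symm]
    have h6 : ∑' p : κ × Γ, ‖⟪(U p.2 : H →L[ℂ] H) (f p.1), z⟫_ℂ‖ₑ ^ 2 = ‖z‖ₑ ^ 2 := hf z
    rw [ENNReal.tsum_prod', tsum_fintype] at h6
    simp only [h5]
    rw [h6, ← ofReal_norm, hz]
    simp
  have h7 : ENNReal.ofReal (∑ i, ‖f i‖ ^ 2) = ENNReal.ofReal 1 := by
    rw [ENNReal.ofReal_sum_of_nonneg (fun i _ => by positivity), ENNReal.ofReal_one, ← h4]
    refine Finset.sum_congr rfl fun i _ => ?_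
    rw [← ofReal_norm, ENNReal.ofReal_pow (norm_nonneg _)]
  exact (ENNReal.ofReal_eq_ofReal_iff (by positivity) zero_le_one).1 h7

end

end Vale.Agent.P092
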