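import Vale.Agent.P092.H418.Corner
import Vale.Agent.P092.H418.Orbit
import Vale.Agent.P092.H414.Step3

/-!
# From the abstract conclusion to `AmpIso.IsCanonical`
-/

namespace Vale.Agent.P092

open scoped InnerProductSpace ENNReal ComplexConjugate
open ContinuousLinearMap InnerProductSpace

noncomputable section

variable {Γ Λ : Type} [Group Γ] [Group Λ] {n : ℕ} (Φ : AmpIso Γ Λ n)

omit [Group Γ] in
theorem inc_zero_one (ξ : KK Γ 1) : inc 0 (ξ 0) = ξ := by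
  have h := sum_inc ξ
  rwa [Fin.sum_univ_one] at h

omit [Group Γ] in
theorem clm_ext_KK_one {K : Type} [NormedAddCommGroup K] [NormedSpace ℂ K]
    {A B : KK Γ 1 →L[ℂ] K} (h : ∀ g, A (inc 0 (delta g)) = B (inc 0 (delta g))) : A = B := by
  refine clm_ext_basis (AmpIso.KKbasis Γ 1) fun p => ?_
  obtain ⟨g, i⟩ := p
  rw [AmpIso.KKbasis_apply, Subsingleton.elim i 0, h]

theorem mat_u_inc (g h : Γ) : mat (Matrix.of fun _ _ => u g : Matrix (Fin 1) (Fin 1) (LG Γ))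
    (inc 0 (delta h)) = inc 0 (delta (g * h)) := by
  ext1
  funext i
  rw [mat_inc, inc_apply, if_pos (Subsingleton.elim i 0)]
  exact lreg_delta g h

namespace AmpIso

/-- An isometry of `ℓ²(Γ)` onto the corner space intertwining the right regular representations
is given by a column over `L(Γ)`. -/
theorem exists_column (R : ell2 Γ →L[ℂ] Φ.HH) (hR1 : adjoint R ∘L R = 1)
    (hR2 : R ∘L adjoint R = 1)
    (hR3 : ∀ g h, R (delta (h * g⁻¹)) = (Φ.Urep g : Φ.HH →L[ℂ] Φ.HH) (R (delta h))) :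
    ∃ w : Matrix (Fin n) (Fin 1) (LG Γ), w.conjTranspose * w = 1 ∧ w * w.conjTranspose = Φ.p ∧
      ∀ h, mat w (inc 0 (delta h)) = (R (delta h) : KK Γ n) := by
  obtain ⟨T, hT⟩ : ∃ T : KK Γ 1 →L[ℂ] KK Γ n, T = Φ.HH.subtypeL ∘L R ∘L adjoint (inc 0) :=
    ⟨_, rfl⟩
  have hTapply : ∀ h, T (inc 0 (delta h)) = (R (delta h) : KK Γ n) := by
    intro h
    rw [hT]
    change ((R (adjoint (inc 0) (inc (n := 1) 0 (delta h))) : Φ.HH) : KK Γ n) = _
    rw [adjoint_inc_apply, inc_apply, if_pos rfl]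
  obtain ⟨w, hw⟩ := exists_mat (T := T) (fun g => clm_ext_KK_one fun h => by
    rw [comp_apply, comp_apply, RR_inc, rreg_delta, hTapply, hTapply, hR3, coe_Urep])
  have hadjT : adjoint T = inc 0 ∘L adjoint R ∘L Φ.pr := by
    refine ContinuousLinearMap.ext fun η => ext_inner_left ℂ fun ξ => ?_
    rw [adjoint_inner_right, hT]
    change ⟪((R (adjoint (inc 0) ξ) : Φ.HH) : KK Γ n), η⟫_ℂ = ⟪ξ, inc 0 (adjoint R (Φ.pr η))⟫_ℂ
    rw [← adjoint_inner_left (inc 0), adjoint_inner_right, inner_pr_right]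
  refine ⟨w, ?_, ?_, fun h => by rw [hw, hTapply]⟩
  · apply mat_injective
    rw [mat_mul, ← adjoint_mat, hw, hadjT, mat_one]
    refine ContinuousLinearMap.ext fun ξ => ?_
    rw [hT]
    change inc 0 (adjoint R (Φ.pr ((R (adjoint (inc 0) ξ) : Φ.HH) : KK Γ n))) = ξ
    rw [pr_coe, adjoint_inc_apply, ← comp_apply (adjoint R), hR1]
    exact inc_zero_one ξ
  · apply mat_injective
    rw [mat_mul, ← adjoint_mat, hw, hadjT]
    refine ContinuousLinearMap.ext fun ξ => ?_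
    rw [hT]
    change ((R (adjoint (inc 0) (inc (n := 1) 0 (adjoint R (Φ.pr ξ)))) : Φ.HH) : KK Γ n) = _
    rw [adjoint_inc_apply, inc_apply, if_pos rfl, ← comp_apply R, hR2]
    rfl

theorem t_eq_sum : Φ.t = ∑ i, ((‖Φ.zv i‖ ^ 2 : ℝ) : ℂ) := by
  rw [t, ← map_one_eq, sum_tau_eq, act_one]
  refine Finset.sum_congr rfl fun i _ => ?_
  exact inner_self_eq_ofReal (Φ.zv i)

/-- The end of the translation. -/
theorem isCanonical_of (z : Φ.HH) (δ : Γ ≃* Λ) (χ : Γ →* Circle) (hz : ‖z‖ = 1)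
    (hU : ∀ g, (Φ.Urep g : Φ.HH →L[ℂ] Φ.HH) z =
      (χ g : ℂ) • (Φ.Vrep (δ g)⁻¹ : Φ.HH →L[ℂ] Φ.HH) z)
    (horth : ∀ s : Λ, s ≠ 1 → ⟪z, (Φ.Vrep s : Φ.HH →L[ℂ] Φ.HH) z⟫_ℂ = 0)
    (htot : ∀ v : Φ.HH, (∀ s : Λ, ⟪(Φ.Vrep s : Φ.HH →L[ℂ] Φ.HH) z, v⟫_ℂ = 0) → v = 0) :
    Φ.IsCanonical := by
  obtain ⟨bz, R, hbz, hR, hR1, hR2⟩ := exists_orbit_isometry hz hU horth htot
  obtain ⟨w, h1, h2, hw⟩ := Φ.exists_column R hR1 hR2 (U_R_orbit R hR)
  refine ⟨?_, δ, χ, w, h1, h2, ?_⟩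
  · rw [t_eq_sum, ← Complex.ofReal_sum, sum_frame_norm Φ.isFrame_zv bz hbz hz, Complex.ofReal_one]
  · intro g
    have h3 : ∀ h, (Φ.Vrep (δ g) : Φ.HH →L[ℂ] Φ.HH) (R (delta h)) =
        (χ g : ℂ) • R (delta (g * h)) := V_R_orbit hU Φ.commute_U_V R hR g
    have key : Φ.toHom (u (δ g)) * w = (χ g : ℂ) • (w *
        (Matrix.of fun _ _ => u g : Matrix (Fin 1) (Fin 1) (LG Γ))) := by
      apply mat_injective
      refine clm_ext_KK_one fun h => ?_
      rw [mat_mul, mat_smul, mat_mul, comp_apply, smul_apply, comp_apply, mat_u_inc, hw, hw]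
      exact congrArg Subtype.val (h3 h)
    calc Φ.toHom (u (δ g)) = Φ.toHom (u (δ g)) * Φ.p := (Φ.mul_p _).symm
      _ = Φ.toHom (u (δ g)) * w * w.conjTranspose := by rw [← h2, Matrix.mul_assoc]
      _ = (χ g : ℂ) • (w * (Matrix.of fun _ _ => u g : Matrix (Fin 1) (Fin 1) (LG Γ)) *
            w.conjTranspose) := by rw [key, Matrix.smul_mul]

/-- The conclusion of the abstract theorem for the corner model implies that the isomorphism is
canonical. -/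
theorem isCanonical_of_concl (hicc : IsICC Γ) {t : ℝ}
    (htr : ∀ x : LG Λ, ∑ i, tau (Φ.toHom x i i) = (t : ℂ) * tau x)
    (hC : Concl Φ.Urep Φ.Vrep) : Φ.IsCanonical := by
  obtain ⟨z, δ, χ, hz, hU, horth, htot⟩ := exists_mulEquiv_of_concl Φ.Urep Φ.Vrep Φ.commute_U_V hC
    (Φ.hcomm htr) hicc Φ.finite_stab
  exact Φ.isCanonical_of z δ χ hz hU horth htot

end AmpIso

end

end Vale.Agent.P092
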