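import Vale.Agent.P092.H418.Lower
import Vale.Agent.P092.H418.Translate
import Vale.Agent.P092.H414.Fourth

/-!
# Canonical isomorphisms: lower bound for the fourth power sums
-/

namespace Vale.Agent.P092

open scoped InnerProductSpace ENNReal ComplexConjugate
open ContinuousLinearMap InnerProductSpace

noncomputable section

variable {Γ Λ : Type} [Group Γ] [Group Λ] {n : ℕ} (Φ : AmpIso Γ Λ n)

namespace AmpIso

/-- The unit vector attached to a canonical isomorphism. -/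
theorem IsCanonical.exists_vector {Φ : AmpIso Γ Λ n} (hcan : Φ.IsCanonical) :
    ∃ (z : Φ.HH) (δ : Γ ≃* Λ) (χ : Γ →* Circle), ‖z‖ = 1 ∧
      ∀ g, (Φ.Vrep (δ g) : Φ.HH →L[ℂ] Φ.HH) z =
        (χ g : ℂ) • (Φ.Urep g⁻¹ : Φ.HH →L[ℂ] Φ.HH) z := by
  obtain ⟨-, δ, χ, w, hw1, hw2, hw⟩ := hcan
  have hP : Φ.P (mat w (inc 0 (delta 1))) = mat w (inc 0 (delta 1)) := by
    rw [P, ← comp_apply, ← mat_mul, ← hw2, Matrix.mul_assoc, hw1, Matrix.mul_one]
  refine ⟨⟨mat w (inc 0 (delta 1)), hP⟩, δ, χ, ?_, ?_⟩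
  · have h1 : ⟪mat w (inc 0 (delta 1)), mat w (inc 0 (delta 1))⟫_ℂ = 1 := by
      rw [← adjoint_inner_right, adjoint_mat, ← comp_apply, ← mat_mul, hw1, mat_one]
      change ⟪inc 0 (delta 1), inc (n := 1) 0 (delta 1)⟫_ℂ = 1
      rw [inner_inc_left, inc_apply, if_pos rfl, inner_delta, delta_apply_self]
    have h2 : ‖mat w (inc 0 (delta 1))‖ ^ 2 = 1 := by
      rw [inner_self_eq_ofReal] at h1
      exact Complex.ofReal_injective h1
    change ‖mat w (inc 0 (delta 1))‖ = 1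
    exact (pow_eq_one_iff_of_nonneg (norm_nonneg _) two_ne_zero).1 h2
  · intro g
    apply Subtype.ext
    change mat (Φ.toHom (u (δ g))) (mat w (inc 0 (delta 1))) =
      (χ g : ℂ) • RR n g⁻¹ (mat w (inc 0 (delta 1)))
    have h1 : Φ.toHom (u (δ g)) * w = (χ g : ℂ) • (w *
        (Matrix.of fun _ _ => u g : Matrix (Fin 1) (Fin 1) (LG Γ))) := by
      rw [hw, Matrix.smul_mul, Matrix.mul_assoc, hw1, Matrix.mul_one]
    rw [← comp_apply, ← mat_mul, h1, mat_smul, mat_mul, smul_apply, comp_apply, mat_u_inc,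
      ← comp_apply (RR n g⁻¹), ← mat_RR, comp_apply, RR_inc, rreg_delta, inv_inv, one_mul, mul_one]

/-- If `Φ` is canonical, then, up to translations by a finite set, the fourth power sums are
bounded below. -/
theorem IsCanonical.exists_lower {Φ : AmpIso Γ Λ n} (hcan : Φ.IsCanonical) :
    ∃ (F : Finset Γ) (ε : ℝ), 0 < ε ∧ ∀ g, ∃ h ∈ F, ∃ h' ∈ F,
      ENNReal.ofReal ε ≤ Φ.fourth (h * g * h') := by
  obtain ⟨z, δ, χ, hz, hV⟩ := hcan.exists_vector
  obtain ⟨F, ε, hε, hF⟩ := lower_bound_of_orbit Φ.commute_U_V (f := Φ.zv)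
    (fun v hv => Φ.eq_zero_of_inner_zv hv) hz (σ := δ) (χ := fun g => (χ g : ℂ))
    (fun g => Circle.norm_coe _) hV
  refine ⟨F, ε ^ 4, by positivity, fun g => ?_⟩
  obtain ⟨h, hh, h', hh', i, j, hij⟩ := hF g
  refine ⟨h, hh, h', hh', ?_⟩
  rw [fourth_eq, ENNReal.ofReal_pow hε.le]
  refine le_trans ?_ (ENNReal.le_tsum (δ g))
  refine le_trans ?_ (Finset.single_le_sum (f := fun i => ∑ j, ‖Φ.cf (δ g) i j (h * g * h')‖ₑ ^ 4)
    (fun _ _ => zero_le) (Finset.mem_univ i))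
  refine le_trans ?_ (Finset.single_le_sum (f := fun j => ‖Φ.cf (δ g) i j (h * g * h')‖ₑ ^ 4)
    (fun _ _ => zero_le) (Finset.mem_univ j))
  refine pow_le_pow_left' ?_ 4
  rw [cf_eq, ← ofReal_norm]
  exact ENNReal.ofReal_le_ofReal hij

end AmpIso

end

end Vale.Agent.P092
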