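import Mathlib

/-!
# Joint eigenvectors of commuting families of operators containing a compact one
-/

namespace Vale.Agent.P092.H418

open scoped InnerProductSpace ComplexConjugate
open ContinuousLinearMap Module

noncomputable section

variable {H : Type} [NormedAddCommGroup H] [InnerProductSpace ℂ H]

/-- A commuting family of endomorphisms leaving a nonzero finite-dimensional space invariant has a
joint eigenvector in it. -/
theorem exists_joint_of_finrank (S : Set (H →L[ℂ] H))
    (hcomm : ∀ A ∈ S, ∀ B ∈ S, ∀ v, A (B v) = B (A v)) :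
    ∀ (n : ℕ) (W : Submodule ℂ H), FiniteDimensional ℂ W → finrank ℂ W = n → W ≠ ⊥ →
      (∀ A ∈ S, ∀ v ∈ W, A v ∈ W) →
      ∃ z : H, z ≠ 0 ∧ ∀ X ∈ S, ∃ c : ℂ, X z = c • z := by
  intro n
  induction n using Nat.strong_induction_on with
  | _ n ih =>
    intro W hWf hn hW0 hinv
    by_cases hall : ∀ X ∈ S, ∃ c : ℂ, ∀ v ∈ W, X v = c • v
    · obtain ⟨z, hzW, hz0⟩ := Submodule.exists_mem_ne_zero_of_ne_bot hW0
      refine ⟨z, hz0, fun X hX => ?_⟩
      obtain ⟨c, hc⟩ := hall X hX
      exact ⟨c, hc z hzW⟩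
    · push Not at hall
      obtain ⟨X, hX, hXc⟩ := hall
      have hnt : Nontrivial W := Submodule.nontrivial_iff_ne_bot.2 hW0
      let XW : Module.End ℂ W :=
        (X : H →ₗ[ℂ] H).restrict (p := W) (q := W) (fun v hv => hinv X hX v hv)
      obtain ⟨c, hc⟩ := Module.End.exists_eigenvalue XW
      obtain ⟨w, hw⟩ := hc.exists_hasEigenvector
      let W' : Submodule ℂ H := W ⊓ LinearMap.ker ((X : H →ₗ[ℂ] H) - c • LinearMap.id)
      have hmem : ∀ v, v ∈ W' ↔ v ∈ W ∧ X v = c • v := by
        intro v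
        simp only [W', Submodule.mem_inf, LinearMap.mem_ker, LinearMap.sub_apply,
          ContinuousLinearMap.coe_coe, LinearMap.smul_apply, LinearMap.id_coe, id_eq, sub_eq_zero]
      have hle : W' ≤ W := inf_le_left
      have hW'f : FiniteDimensional ℂ W' := Submodule.finiteDimensional_of_le hle
      have hlt : W' < W := by
        refine lt_of_le_of_ne hle fun heq => ?_
        obtain ⟨v, hv, hvc⟩ := hXc c
        exact hvc ((hmem v).1 (heq ▸ hv)).2
      have hfr : finrank ℂ W' < n := hn ▸ Submodule.finrank_lt_finrank_of_lt hlt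
      refine ih (finrank ℂ W') hfr W' hW'f rfl ?_ ?_
      · intro hbot
        have hw1 : ((w : W) : H) ∈ W' := by
          rw [hmem]
          refine ⟨w.2, ?_⟩
          have := hw.apply_eq_smul
          have h2 := congrArg (Subtype.val) this
          simpa [XW] using h2
        rw [hbot, Submodule.mem_bot] at hw1
        exact hw.2 (Subtype.ext hw1)
      · intro A hA v hv
        rw [hmem] at hv ⊢
        refine ⟨hinv A hA v hv.1, ?_⟩
        rw [hcomm X hX A hA, hv.2, map_smul]

/-- A commuting family of bounded operators containing a nonzero compact self-adjoint operator has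
a joint eigenvector. -/
theorem exists_joint_eigenvector [CompleteSpace H] (S : Set (H →L[ℂ] H))
    (hcomm : ∀ A ∈ S, ∀ B ∈ S, ∀ v, A (B v) = B (A v))
    (A : H →L[ℂ] H) (hA : A ∈ S) (hAc : IsCompactOperator A) (hAs : IsSelfAdjoint A)
    (hA0 : A ≠ 0) :
    ∃ z : H, ‖z‖ = 1 ∧ ∀ X ∈ S, ∃ c : ℂ, X z = c • z := by
  have hsymm : A.IsSymmetric := isSelfAdjoint_iff_isSymmetric.1 hAs
  have h1 : ∃ μ : ℂ, End.HasEigenvalue (A : End ℂ H) μ ∧ μ ≠ 0 := by
    by_contra hcon
    push Not at hcon
    exact hA0 ((eq_zero_of_forall_hasEigenvalue_eq_zero hAc hsymm).1 hcon)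
  obtain ⟨μ, hμ, hμ0⟩ := h1
  have hfin : FiniteDimensional ℂ (End.eigenspace (A : End ℂ H) μ) :=
    finite_dimensional_eigenspace hAc μ hμ0
  obtain ⟨z, hz0, hz⟩ := exists_joint_of_finrank S hcomm _ (End.eigenspace (A : End ℂ H) μ)
    hfin rfl hμ (by
      intro B hB v hv
      rw [End.mem_eigenspace_iff] at hv ⊢
      have hv' : A v = μ • v := hv
      change A (B v) = μ • B v
      rw [hcomm A hA B hB, hv', map_smul])
  refine ⟨((‖z‖⁻¹ : ℝ) : ℂ) • z, ?_, fun X hX => ?_⟩
  · rw [norm_smul]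
    simp [norm_ne_zero_iff.2 hz0]
  · obtain ⟨c, hc⟩ := hz X hX
    refine ⟨c, ?_⟩
    rw [map_smul, hc, smul_comm]

end

end Vale.Agent.P092.H418
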