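import Vale.Agent.P092.H418.Comm
import Vale.Agent.P092.H418.Eigen

/-!
# Steps 6 and 7: from the projection `E` to the vector `z`
-/

namespace Vale.Agent.P092

open scoped InnerProductSpace ENNReal ComplexConjugate
open ContinuousLinearMap InnerProductSpace

noncomputable section

variable {ι m Γ Λ : Type} [Group Γ] [Group Λ]
  {H : Type} [NormedAddCommGroup H] [InnerProductSpace ℂ H] [CompleteSpace H]
  {b : HilbertBasis ι ℂ H} {U : Γ →* unitary (H →L[ℂ] H)} {V : Λ →* unitary (H →L[ℂ] H)}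

theorem concl_of_kraus {E : HS ι H →L[ℂ] HS ι H} (hE : GoodProj b U V E)
    (X : m → HS ι H) (hmem : ∀ j, E (X j) = X j)
    (hexp : ∀ Z, HasSum (fun j => ⟪X j, Z⟫_ℂ • X j) (E Z))
    (hleft : ∀ v, ∑' j, ‖adjoint (op b (X j)) v‖ₑ ^ 2 = ‖v‖ₑ ^ 2)
    (hright : ∀ v, ∑' j, ‖op b (X j) v‖ₑ ^ 2 = ‖v‖ₑ ^ 2) : Concl U V := by
  have hadj : ∀ Z, E Z = Z → E (adj b Z) = adj b Z := fun Z hZ => by
    rw [comm_adj b E hE.selfAdjoint hE.symm, hZ]
  have hEE : ∀ Z, E (E Z) = E Z := fun Z => by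
    have := hE.idem
    exact congrArg (fun T : HS ι H →L[ℂ] HS ι H => T Z) this
  have hEin : ∀ A B : HS ι H, ⟪A, E B⟫_ℂ = ⟪E A, B⟫_ℂ := fun A B => by
    conv_lhs => rw [← hE.selfAdjoint]
    rw [adjoint_inner_right]
  -- a nonzero self-adjoint element
  obtain ⟨A, hA, hA0, hAs⟩ : ∃ A : HS ι H, E A = A ∧ A ≠ 0 ∧ adj b A = A := by
    obtain ⟨Y, hY⟩ : ∃ Y, E Y ≠ 0 := by
      by_contra hcon
      push Not at hcon
      exact hE.ne_zero (ContinuousLinearMap.ext hcon)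
    by_cases hs : E Y + adj b (E Y) = 0
    · refine ⟨Complex.I • E Y, ?_, ?_, ?_⟩
      · rw [map_smul, hEE]
      · exact smul_ne_zero Complex.I_ne_zero hY
      · rw [map_smulₛₗ, eq_neg_of_add_eq_zero_right hs]
        simp
    · refine ⟨E Y + adj b (E Y), ?_, hs, ?_⟩
      · rw [map_add, hEE, hadj _ (hEE Y)]
      · rw [map_add, adj_adj, add_comm]
  -- joint eigenvector
  obtain ⟨z, hz1, hz⟩ := H418.exists_joint_eigenvector
    {B : H →L[ℂ] H | ∃ W, E W = W ∧ op b W = B}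
    (by
      rintro _ ⟨W, hW, rfl⟩ _ ⟨Z, hZ, rfl⟩ v
      exact commute_of_fixed b E hE.symm X hexp hleft hright hW hZ v)
    (op b A) ⟨A, hA, rfl⟩ (isCompactOperator_op b A)
    (by
      rw [ContinuousLinearMap.isSelfAdjoint_iff', ← op_adj, hAs])
    (fun h => hA0 (op_injective b (by rw [h, map_zero])))
  have hz' : ∀ W, E W = W → ∃ c : ℂ, op b W z = c • z := fun W hW => hz _ ⟨W, hW, rfl⟩
  have hzz : ⟪z, z⟫_ℂ = 1 := by
    rw [inner_self_eq_norm_sq_to_K (𝕜 := ℂ), hz1]; simp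
  have hz0 : z ≠ 0 := by
    intro h
    rw [h, norm_zero] at hz1
    exact zero_ne_one hz1
  -- the projection onto `z` is fixed
  have hP : E (ten b z z) = ten b z z := by
    refine fixed_of_commute b E hE.symm X hmem hexp hleft hright fun W hW => ?_
    obtain ⟨c, hc⟩ := hz' W hW
    obtain ⟨c', hc'⟩ := hz' _ (hadj W hW)
    rw [op_adj] at hc'
    have hcc : c = conj c' := by
      have h1 : ⟪z, op b W z⟫_ℂ = c := by rw [hc, inner_smul_right, hzz, mul_one]
      have h2 : ⟪z, op b W z⟫_ℂ = conj c' := by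
        rw [← adjoint_inner_left, hc', inner_smul_left, hzz, mul_one]
      rw [← h1, h2]
    ext x
    rw [op_ten, comp_apply, comp_apply, rankOne_apply, rankOne_apply, map_smul, hc,
      ← adjoint_inner_left, hc', inner_smul_left, ← hcc, smul_smul, mul_comm]
  have hU : ∀ g, E (ten b ((U g : H →L[ℂ] H) z) ((U g : H →L[ℂ] H) z))
      = ten b ((U g : H →L[ℂ] H) z) ((U g : H →L[ℂ] H) z) := by
    intro g
    have h := congrArg (fun T : HS ι H →L[ℂ] HS ι H => T (ten b z z)) (hE.commU g).eq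
    simp only [ContinuousLinearMap.mul_def, comp_apply] at h
    rw [hP, Ad_ten] at h
    exact h.symm
  have hV : ∀ s, E (ten b ((V s : H →L[ℂ] H) z) ((V s : H →L[ℂ] H) z))
      = ten b ((V s : H →L[ℂ] H) z) ((V s : H →L[ℂ] H) z) := by
    intro s
    have h := congrArg (fun T : HS ι H →L[ℂ] HS ι H => T (ten b z z)) (hE.commV s).eq
    simp only [ContinuousLinearMap.mul_def, comp_apply] at h
    rw [hP, Ad_ten] at h
    exact h.symm
  have hV1 : ∀ s, ⟪(V s : H →L[ℂ] H) z, (V s : H →L[ℂ] H) z⟫_ℂ = 1 := fun s => by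
    rw [unitary_inner_map, hzz]
  have hU1 : ∀ g, ⟪(U g : H →L[ℂ] H) z, (U g : H →L[ℂ] H) z⟫_ℂ = 1 := fun g => by
    rw [unitary_inner_map, hzz]
  have htotal : ∀ v : H, (∀ s : Λ, ⟪(V s : H →L[ℂ] H) z, v⟫_ℂ = 0) → v = 0 := by
    intro v hv
    have h1 : ∀ k : Λ, E (rmul b (V k : H →L[ℂ] H) (ten b v z)) = 0 := by
      intro k
      rw [rmul_ten, adjoint_rep]
      refine ext_inner_left ℂ fun W => ?_
      rw [inner_zero_right, hEin, inner_ten_right]
      have h2 := commute_of_fixed b E hE.symm X hexp hleft hright (hEE W) (hV k⁻¹)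
        ((V k⁻¹ : H →L[ℂ] H) z)
      rw [op_ten, rankOne_apply, rankOne_apply, hV1, one_smul] at h2
      rw [h2, inner_smul_left, hv, mul_zero]
    obtain ⟨c, hc0, -, hc⟩ := hE.full
    have h2 := hc (ten b v z)
    simp only [h1, enorm_zero, ne_eq, OfNat.ofNat_ne_zero, not_false_eq_true, zero_pow,
      tsum_zero] at h2
    have h3 : ‖ten b v z‖ₑ ^ 2 = 0 := by
      rcases mul_eq_zero.1 h2.symm with h | h
      · exact absurd h hc0
      · exact h
    have h4 : ‖ten b v z‖ₑ = 0 := by simpa using h3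
    rw [enorm_eq_zero, ← norm_eq_zero, norm_ten, hz1, mul_one, norm_eq_zero] at h4
    exact h4
  refine ⟨z, hz1, ?_, htotal, ?_⟩
  · intro k hk
    have h := congrArg (fun T : HS ι H →L[ℂ] HS ι H => T (ten b z z)) (hE.mal k hk)
    simp only [ContinuousLinearMap.mul_def, comp_apply, _root_.zero_apply] at h
    rw [hP, rmul_ten] at h
    have h2 : ⟪ten b z z, E (ten b z (adjoint (V k : H →L[ℂ] H) z))⟫_ℂ = 0 := by
      rw [h, inner_zero_right]
    rw [hEin, hP, inner_ten_ten, hzz, one_mul, adjoint_inner_left] at h2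
    exact h2
  · intro g
    obtain ⟨s, hs⟩ : ∃ s : Λ, ⟪(V s : H →L[ℂ] H) z, (U g : H →L[ℂ] H) z⟫_ℂ ≠ 0 := by
      by_contra hcon
      push Not at hcon
      have h0 := htotal _ hcon
      have h1 := hU1 g
      rw [h0, inner_zero_left] at h1
      exact zero_ne_one h1
    refine ⟨s, (⟪(U g : H →L[ℂ] H) z, (V s : H →L[ℂ] H) z⟫_ℂ)⁻¹, ?_⟩
    have h2 := commute_of_fixed b E hE.symm X hexp hleft hright (hU g) (hV s)
      ((U g : H →L[ℂ] H) z)
    rw [op_ten, op_ten, rankOne_apply, rankOne_apply, rankOne_apply, rankOne_apply,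
      inner_smul_right, inner_smul_right, hU1, one_mul, mul_smul] at h2
    have h3 := smul_right_injective H hs h2
    have hs' : ⟪(U g : H →L[ℂ] H) z, (V s : H →L[ℂ] H) z⟫_ℂ ≠ 0 := fun h => hs (by
      rw [← inner_conj_symm, h, map_zero])
    have h4 := congrArg (fun y => (⟪(U g : H →L[ℂ] H) z, (V s : H →L[ℂ] H) z⟫_ℂ)⁻¹ • y) h3
    simp only [smul_smul, inv_mul_cancel₀ hs', one_smul] at h4
    exact h4

end

end Vale.Agent.P092
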