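import Vale.Agent.P092.H184.Kraus
import Vale.Agent.P092.H418.Final

/-!
# From `GoodProj` to the conclusion
-/

namespace Vale.Agent.P092

noncomputable section

variable {ι Γ Λ : Type} [Group Γ] [Group Λ]
  {H : Type} [NormedAddCommGroup H] [InnerProductSpace ℂ H] [CompleteSpace H]
  {b : HilbertBasis ι ℂ H} {U : Γ →* unitary (H →L[ℂ] H)} {V : Λ →* unitary (H →L[ℂ] H)}

/-- Steps 4b to 7: a `GoodProj` gives the conclusion. -/
theorem concl_of_goodProj {E : HS ι H →L[ℂ] HS ι H} (hE : GoodProj b U V E) : Concl U V := by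
  obtain ⟨m, X, h1, h2, h3, h4⟩ := exists_kraus hE
  exact concl_of_kraus hE X h1 h2 h3 h4

end

end Vale.Agent.P092
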