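import Vale.Agent.P092.H418.Reg

/-!
# Matrices over `L(Γ)` as operators on `ℓ²(Γ)^n`
-/

namespace Vale.Agent.P092

open scoped InnerProductSpace ENNReal ComplexConjugate
open ContinuousLinearMap InnerProductSpace

noncomputable section

section general

variable {K : Type} [NormedAddCommGroup K] [InnerProductSpace ℂ K] [CompleteSpace K]

/-- A unitary representation from a family of operators. -/
def mkRep {Γ : Type} [Group Γ] (W : Γ → K →L[ℂ] K) (h1 : W 1 = 1)
    (hmul : ∀ g h, W (g * h) = W g * W h) (hadj : ∀ g, adjoint (W g) = W g⁻¹) :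
    Γ →* unitary (K →L[ℂ] K) where
  toFun g := ⟨W g, by
    rw [Unitary.mem_iff]
    constructor
    · rw [star_eq_adjoint, hadj, ← hmul, inv_mul_cancel, h1]
    · rw [star_eq_adjoint, hadj, ← hmul, mul_inv_cancel, h1]⟩
  map_one' := Subtype.ext h1
  map_mul' g h := Subtype.ext (hmul g h)

@[simp]
theorem mkRep_coe {Γ : Type} [Group Γ] (W : Γ → K →L[ℂ] K) (h1 : W 1 = 1)
    (hmul : ∀ g h, W (g * h) = W g * W h) (hadj : ∀ g, adjoint (W g) = W g⁻¹) (g : Γ) :
    (mkRep W h1 hmul hadj g : K →L[ℂ] K) = W g := rfl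

end general

section ell2

variable {Γ : Type}

theorem delta_apply [hd : DecidableEq Γ] (g x : Γ) :
    (delta g : ell2 Γ) x = if x = g then 1 else 0 := by
  split_ifs with h
  · rw [h, delta_apply_self]
  · exact delta_apply_ne h

end ell2

variable {Γ : Type} {n m k : ℕ}

/-- The Hilbert space `ℓ²(Γ)^n`. -/
abbrev KK (Γ : Type) (n : ℕ) : Type := lp (fun _ : Fin n => ell2 Γ) 2

/-- The `i`-th inclusion `ℓ²(Γ) → ℓ²(Γ)^n`. -/
def inc (i : Fin n) : ell2 Γ →L[ℂ] KK Γ n :=
  lp.singleContinuousLinearMap ℂ (fun _ : Fin n => ell2 Γ) 2 i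

theorem inc_apply (i j : Fin n) (ξ : ell2 Γ) : inc i ξ j = if j = i then ξ else 0 := by
  change (lp.single (E := fun _ : Fin n => ell2 Γ) 2 i ξ : KK Γ n) j = _
  rw [lp.single_apply]
  by_cases h : j = i
  · subst h; simp
  · simp [h]

theorem sum_inc (ξ : KK Γ n) : ∑ j, inc j (ξ j) = ξ := by
  ext1
  funext j
  rw [lp.coeFn_sum, Finset.sum_apply, Finset.sum_eq_single j]
  · rw [inc_apply, if_pos rfl]
  · intro j' _ hj'
    rw [inc_apply, if_neg (Ne.symm hj')]
  · intro h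
    exact absurd (Finset.mem_univ j) h

theorem KK_inner (ξ η : KK Γ n) : ⟪ξ, η⟫_ℂ = ∑ i, ⟪ξ i, η i⟫_ℂ := by
  rw [lp.inner_eq_tsum, tsum_fintype]

theorem inner_inc_left (i : Fin n) (ξ : ell2 Γ) (η : KK Γ n) : ⟪inc i ξ, η⟫_ℂ = ⟪ξ, η i⟫_ℂ := by
  exact lp.inner_single_left (𝕜 := ℂ) (G := fun _ : Fin n => ell2 Γ) i ξ η

theorem adjoint_inc_apply (i : Fin n) (η : KK Γ n) : adjoint (inc i) η = η i := by
  refine ext_inner_left ℂ fun ξ => ?_
  rw [adjoint_inner_right, inner_inc_left]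

variable [Group Γ]

/-- The operator `ℓ²(Γ)^n → ℓ²(Γ)^m` given by an `m × n` matrix over `L(Γ)`. -/
def mat (x : Matrix (Fin m) (Fin n) (LG Γ)) : KK Γ n →L[ℂ] KK Γ m :=
  ∑ i, ∑ j, inc i ∘L (x i j : ell2 Γ →L[ℂ] ell2 Γ) ∘L adjoint (inc j)

theorem mat_apply (x : Matrix (Fin m) (Fin n) (LG Γ)) (ξ : KK Γ n) (i : Fin m) :
    mat x ξ i = ∑ j, (x i j : ell2 Γ →L[ℂ] ell2 Γ) (ξ j) := by
  rw [mat, sum_apply, ← adjoint_inc_apply, map_sum, Finset.sum_eq_single i]
  · rw [sum_apply, map_sum]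
    refine Finset.sum_congr rfl fun j _ => ?_
    rw [adjoint_inc_apply, comp_apply, comp_apply, adjoint_inc_apply, inc_apply, if_pos rfl]
  · intro i' _ hi'
    rw [adjoint_inc_apply, sum_apply, lp.coeFn_sum, Finset.sum_apply]
    refine Finset.sum_eq_zero fun j _ => ?_
    rw [comp_apply, comp_apply, inc_apply, if_neg (Ne.symm hi')]
  · intro h
    exact absurd (Finset.mem_univ i) h

theorem coe_sum_LG {α : Type} (s : Finset α) (f : α → LG Γ) :
    ((∑ i ∈ s, f i : LG Γ) : ell2 Γ →L[ℂ] ell2 Γ) = ∑ i ∈ s, (f i : ell2 Γ →L[ℂ] ell2 Γ) :=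
  map_sum (LG Γ).subtype f s

theorem mat_mul (x : Matrix (Fin m) (Fin n) (LG Γ)) (y : Matrix (Fin n) (Fin k) (LG Γ)) :
    mat (x * y) = mat x ∘L mat y := by
  refine ContinuousLinearMap.ext fun ξ => ?_
  ext1
  funext i
  rw [mat_apply, comp_apply, mat_apply]
  simp only [mat_apply, map_sum, Matrix.mul_apply]
  rw [Finset.sum_comm]
  refine Finset.sum_congr rfl fun j _ => ?_
  rw [coe_sum_LG, sum_apply]
  rfl

theorem adjoint_mat (x : Matrix (Fin m) (Fin n) (LG Γ)) :
    adjoint (mat x) = mat x.conjTranspose := by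
  refine ContinuousLinearMap.ext fun η => ext_inner_left ℂ fun ξ => ?_
  rw [adjoint_inner_right, KK_inner, KK_inner]
  simp only [mat_apply, sum_inner, inner_sum]
  rw [Finset.sum_comm]
  refine Finset.sum_congr rfl fun j _ => Finset.sum_congr rfl fun i _ => ?_
  rw [← adjoint_inner_right]
  rfl

theorem mat_one : mat (1 : Matrix (Fin n) (Fin n) (LG Γ)) = 1 := by
  refine ContinuousLinearMap.ext fun ξ => ?_
  ext1
  funext i
  rw [mat_apply, Finset.sum_eq_single i]
  · rw [Matrix.one_apply_eq]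
    rfl
  · intro j _ hj
    rw [Matrix.one_apply_ne (Ne.symm hj)]
    rfl
  · intro h
    exact absurd (Finset.mem_univ i) h

theorem mat_add (x y : Matrix (Fin m) (Fin n) (LG Γ)) : mat (x + y) = mat x + mat y := by
  refine ContinuousLinearMap.ext fun ξ => ?_
  ext1
  funext i
  rw [mat_apply, add_apply, lp.coeFn_add, Pi.add_apply, mat_apply, mat_apply,
    ← Finset.sum_add_distrib]
  rfl

theorem mat_smul (c : ℂ) (x : Matrix (Fin m) (Fin n) (LG Γ)) : mat (c • x) = c • mat x := by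
  refine ContinuousLinearMap.ext fun ξ => ?_
  ext1
  funext i
  rw [mat_apply, smul_apply, lp.coeFn_smul, Pi.smul_apply, mat_apply, Finset.smul_sum]
  rfl

theorem mat_inc (x : Matrix (Fin m) (Fin n) (LG Γ)) (j : Fin n) (ξ : ell2 Γ) (i : Fin m) :
    mat x (inc j ξ) i = (x i j : ell2 Γ →L[ℂ] ell2 Γ) ξ := by
  rw [mat_apply, Finset.sum_eq_single j]
  · rw [inc_apply, if_pos rfl]
  · intro j' _ hj'
    rw [inc_apply, if_neg hj', map_zero]
  · intro h
    exact absurd (Finset.mem_univ j) h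

theorem mat_injective : Function.Injective (mat (Γ := Γ) (m := m) (n := n)) := by
  intro x y h
  ext1 i j
  apply Subtype.ext
  refine ContinuousLinearMap.ext fun ξ => ?_
  rw [← mat_inc x j ξ i, ← mat_inc y j ξ i, h]

/-- The right regular unitaries on `ℓ²(Γ)^n`. -/
def RR (n : ℕ) (g : Γ) : KK Γ n →L[ℂ] KK Γ n := lmul (rreg g)

@[simp]
theorem RR_apply (g : Γ) (ξ : KK Γ n) (i : Fin n) : RR n g ξ i = rreg g (ξ i) := rfl

theorem RR_inc (g : Γ) (i : Fin n) (ξ : ell2 Γ) : RR n g (inc i ξ) = inc i (rreg g ξ) := by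
  ext1
  funext j
  rw [RR_apply, inc_apply, inc_apply]
  split_ifs
  · rfl
  · rw [map_zero]

theorem RR_one : RR n (1 : Γ) = 1 := by
  refine ContinuousLinearMap.ext fun ξ => ?_
  ext1
  funext i
  rw [RR_apply, rreg_one]
  rfl

theorem RR_mul (g h : Γ) : RR n (g * h) = RR n g * RR n h := by
  refine ContinuousLinearMap.ext fun ξ => ?_
  ext1
  funext i
  rw [RR_apply, ← rreg_mul]
  rfl

theorem adjoint_RR (g : Γ) : adjoint (RR n g) = RR n g⁻¹ := by
  refine ContinuousLinearMap.ext fun η => ext_inner_left ℂ fun ξ => ?_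
  rw [adjoint_inner_right, KK_inner, KK_inner]
  refine Finset.sum_congr rfl fun i _ => ?_
  rw [RR_apply, RR_apply, ← adjoint_rreg, adjoint_inner_right]

theorem mat_RR (x : Matrix (Fin m) (Fin n) (LG Γ)) (g : Γ) :
    mat x ∘L RR n g = RR m g ∘L mat x := by
  refine ContinuousLinearMap.ext fun ξ => ?_
  ext1
  funext i
  rw [comp_apply, comp_apply, mat_apply, RR_apply, mat_apply, map_sum]
  refine Finset.sum_congr rfl fun j _ => ?_
  rw [RR_apply]
  exact commute_apply (commute_rreg_of_mem_LG (x i j).2 g) _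

/-- Every operator intertwining the right regular representations is given by a matrix over
`L(Γ)`. -/
theorem exists_mat {T : KK Γ n →L[ℂ] KK Γ m} (hT : ∀ g, T ∘L RR n g = RR m g ∘L T) :
    ∃ x : Matrix (Fin m) (Fin n) (LG Γ), mat x = T := by
  have hmem : ∀ i j, adjoint (inc i) ∘L T ∘L inc j ∈ LG Γ := by
    intro i j
    refine mem_LG_of_commute_rreg _ fun g => ContinuousLinearMap.ext fun ξ => ?_
    change adjoint (inc i) (T (inc j (rreg g ξ))) = rreg g (adjoint (inc i) (T (inc j ξ)))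
    rw [← RR_inc, ← comp_apply T, hT, comp_apply, adjoint_inc_apply, adjoint_inc_apply, RR_apply]
  refine ⟨Matrix.of fun i j => ⟨_, hmem i j⟩, ?_⟩
  refine ContinuousLinearMap.ext fun ξ => ?_
  ext1
  funext i
  refine (mat_apply _ ξ i).trans ?_
  change ∑ j, adjoint (inc i) (T (inc j (ξ j))) = _
  rw [← map_sum, ← map_sum, adjoint_inc_apply, sum_inc]

end

end Vale.Agent.P092
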