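import Vale.Agent.P092.H414.PropT
import Vale.Agent.P092.H418.Mat

/-!
# Lower bound for the averages of a positive definite function of a property (T) group
-/

namespace Vale.Agent.P092

open scoped InnerProductSpace ENNReal ComplexConjugate
open ContinuousLinearMap InnerProductSpace

noncomputable section

variable {Γ : Type} [Group Γ]

section split

variable {K : Type} [NormedAddCommGroup K] [InnerProductSpace ℂ K] [CompleteSpace K]

theorem adjoint_restrict' {W : Submodule ℂ K} [CompleteSpace W] {T S : K →L[ℂ] K}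
    (hT : Set.MapsTo T W W) (hS : Set.MapsTo S W W) (h : adjoint T = S) :
    adjoint (T.restrict hT) = S.restrict hS := by
  refine ContinuousLinearMap.ext fun w => ext_inner_left ℂ fun v => ?_
  rw [adjoint_inner_right]
  change ⟪T (v : K), (w : K)⟫_ℂ = ⟪(v : K), S (w : K)⟫_ℂ
  rw [← h, adjoint_inner_right]

/-- Contraction of the word sums, up to an invariant vector. -/
theorem exists_split (π : Γ →* unitary (K →L[ℂ] K)) (S : Finset Γ) {c : ℝ} (hc0 : 0 ≤ c)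
    (hc : ∀ (K : Type) [NormedAddCommGroup K] [InnerProductSpace ℂ K]
      [CompleteSpace K] (π : Γ →* unitary (K →L[ℂ] K)),
      (∀ η : K, (∀ g, (π g : K →L[ℂ] K) η = η) → η = 0) →
      ∀ x : K, ‖∑ s ∈ S, (π s : K →L[ℂ] K) x‖ ≤ S.card * c * ‖x‖) (ξ : K) :
    ∃ ξ₀ ξ₁ : K, ξ = ξ₀ + ξ₁ ∧ (∀ g, (π g : K →L[ℂ] K) ξ₀ = ξ₀) ∧ ⟪ξ₀, ξ⟫_ℂ = ((‖ξ₀‖ ^ 2 : ℝ) : ℂ) ∧
      ‖ξ₁‖ ≤ ‖ξ‖ ∧
      ∀ (f : Γ) (k : ℕ), ‖∑ w : Fin k → S,
        (π (List.ofFn fun i => (w i : Γ)).prod : K →L[ℂ] K) ((π f : K →L[ℂ] K) ξ₁)‖ ≤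
          (S.card * c) ^ k * ‖ξ₁‖ := by
  let Inv : Submodule ℂ K :=
    { carrier := {η | ∀ g, (π g : K →L[ℂ] K) η = η}
      add_mem' := fun {a b} ha hb g => by rw [map_add, ha, hb]
      zero_mem' := fun g => map_zero _
      smul_mem' := fun r {a} ha g => by rw [map_smul, ha] }
  have hInvcl : IsClosed (Inv : Set K) := by
    have : (Inv : Set K) = ⋂ g, {η | (π g : K →L[ℂ] K) η = η} := by
      ext η
      simp [Inv]
    rw [this]
    exact isClosed_iInter fun g => isClosed_eq (π g : K →L[ℂ] K).continuous continuous_id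
  have : CompleteSpace Inv := hInvcl.completeSpace_coe
  let N : Submodule ℂ K := Invᗮ
  have : CompleteSpace N := (Submodule.isClosed_orthogonal Inv).completeSpace_coe
  have hmaps : ∀ g, Set.MapsTo (π g : K →L[ℂ] K) N N := by
    intro g x hx
    rw [SetLike.mem_coe, Submodule.mem_orthogonal] at hx ⊢
    intro η hη
    rw [rep_inner_right, hη g⁻¹]
    exact hx η hη
  let πN : Γ →* unitary (N →L[ℂ] N) := mkRep (fun g => (π g : K →L[ℂ] K).restrict (hmaps g))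
    (by
      refine ContinuousLinearMap.ext fun v => Subtype.ext ?_
      change (π 1 : K →L[ℂ] K) (v : K) = v
      rw [rep_one_apply])
    (fun g h => by
      refine ContinuousLinearMap.ext fun v => Subtype.ext ?_
      change (π (g * h) : K →L[ℂ] K) (v : K) = _
      rw [rep_mul_apply]
      rfl)
    (fun g => adjoint_restrict' _ _ (adjoint_rep π g))
  have hπN : ∀ g (x : N), (((πN g : N →L[ℂ] N) x : N) : K) = (π g : K →L[ℂ] K) (x : K) :=
    fun g x => rfl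
  have hno : ∀ η : N, (∀ g, (πN g : N →L[ℂ] N) η = η) → η = 0 := by
    intro η hη
    have h1 : (η : K) ∈ Inv := fun g => by
      rw [← hπN, hη]
    have h2 : ⟪(η : K), (η : K)⟫_ℂ = 0 := (Submodule.mem_orthogonal _ _).1 η.2 _ h1
    exact Subtype.ext (inner_self_eq_zero.1 h2)
  have hcN := hc N πN hno
  obtain ⟨ξ₀, h0, ξ₁, h1, hsum⟩ := Inv.exists_add_mem_mem_orthogonal ξ
  have horth : ⟪ξ₀, ξ₁⟫_ℂ = 0 := (Submodule.mem_orthogonal _ _).1 h1 _ h0
  refine ⟨ξ₀, ξ₁, hsum, h0, ?_, ?_, ?_⟩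
  · rw [hsum, inner_add_right, horth, add_zero, inner_self_eq_norm_sq_to_K (𝕜 := ℂ)]
    simp
  · have h2 : ‖ξ₁‖ ^ 2 ≤ ‖ξ‖ ^ 2 := by
      have h3 := norm_add_sq_eq_norm_sq_add_norm_sq_of_inner_eq_zero ξ₀ ξ₁ horth
      rw [hsum, pow_two, pow_two, h3]
      nlinarith [norm_nonneg ξ₀]
    exact (sq_le_sq₀ (norm_nonneg _) (norm_nonneg _)).1 h2
  · intro f k
    have h2 := sum_words πN S hcN (by positivity) ((πN f : N →L[ℂ] N) ⟨ξ₁, h1⟩) k
    rw [rep_norm] at h2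
    have h3 : ∑ w : Fin k → S,
        (π (List.ofFn fun i => (w i : Γ)).prod : K →L[ℂ] K) ((π f : K →L[ℂ] K) ξ₁) =
        ((∑ w : Fin k → S, (πN (List.ofFn fun i => (w i : Γ)).prod : N →L[ℂ] N)
          ((πN f : N →L[ℂ] N) ⟨ξ₁, h1⟩) : N) : K) := by
      rw [Submodule.coe_sum]
      exact Finset.sum_congr rfl fun w _ => rfl
    rw [h3]
    exact h2

end split

theorem le_zero_of_le_mul_pow {ε b c : ℝ} (hc0 : 0 ≤ c) (hc1 : c < 1)
    (h : ∀ k : ℕ, ε ≤ b * c ^ k) : ε ≤ 0 := by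
  have h7 : Filter.Tendsto (fun k : ℕ => b * c ^ k) Filter.atTop (nhds (b * 0)) :=
    (tendsto_pow_atTop_nhds_zero_of_lt_one hc0 hc1).const_mul _
  rw [mul_zero] at h7
  exact ge_of_tendsto' h7 h

/-- An elementary lower bound. -/
theorem exists_lower_real {A : ℕ → ℝ} {a b c n : ℝ} (hc0 : 0 ≤ c) (hc1 : c < 1) (hn : 1 ≤ n)
    (ha : 0 < a) (hb : 0 < b) (h1 : ∀ k, n ^ k * (a - b * c ^ k) ≤ A k) (h2 : ∀ k, b ≤ A k) :
    ∃ r : ℝ, 0 < r ∧ ∀ k, n ^ k * r ≤ A k := by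
  obtain ⟨k₀, hk₀⟩ : ∃ k₀ : ℕ, ∀ k, k₀ ≤ k → b * c ^ k ≤ a / 2 := by
    have h12 : Filter.Tendsto (fun k : ℕ => b * c ^ k) Filter.atTop
        (nhds (b * 0)) := (tendsto_pow_atTop_nhds_zero_of_lt_one hc0 hc1).const_mul _
    rw [mul_zero] at h12
    exact Filter.eventually_atTop.1 (h12.eventually (Iic_mem_nhds (by positivity)))
  have hn0 : 0 < n := by linarith
  refine ⟨min (a / 2) (b / n ^ k₀), lt_min (by positivity) (by positivity), fun k => ?_⟩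
  rcases le_total k₀ k with hk | hk
  · refine le_trans ?_ (h1 k)
    refine mul_le_mul_of_nonneg_left ?_ (by positivity)
    have := hk₀ k hk
    have h14 : min (a / 2) (b / n ^ k₀) ≤ a / 2 := min_le_left _ _
    linarith
  · refine le_trans ?_ (h2 k)
    have h14 : min (a / 2) (b / n ^ k₀) ≤ b / n ^ k₀ := min_le_right _ _
    calc n ^ k * min (a / 2) (b / n ^ k₀) ≤ n ^ k₀ * (b / n ^ k₀) :=
          mul_le_mul (pow_le_pow_right₀ hn hk) h14
            (le_min (by positivity) (by positivity)) (by positivity)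
      _ = b := by field_simp

set_option maxHeartbeats 1000000 in
/-- Lower bound for the averages, for a group with property (T). -/
theorem PropertyT.walkAvg_lower (hT : PropertyT Γ) (S : Finset Γ) (h1 : (1 : Γ) ∈ S)
    (hS : Subgroup.closure (S : Set Γ) = ⊤)
    {K : Type} [NormedAddCommGroup K] [InnerProductSpace ℂ K] [CompleteSpace K] (κ : Γ → K)
    (hgram : ∀ g x y, ⟪κ (g * x), κ (g * y)⟫_ℂ = ⟪κ x, κ y⟫_ℂ)
    (hre : ∀ g h, 0 ≤ RCLike.re ⟪κ g, κ h⟫_ℂ) (F : Finset Γ) {ε : ℝ} (hε : 0 < ε)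
    (hF : ∀ g, ∃ f ∈ F, ∃ f' ∈ F, ε ≤ RCLike.re ⟪κ (f * g * f'), κ 1⟫_ℂ) :
    ∃ ε' : ℝ≥0∞, ε' ≠ 0 ∧
      ∀ k, ε' ≤ walkAvg S k fun g => ENNReal.ofReal (RCLike.re ⟪κ g, κ 1⟫_ℂ) := by
  classical
  obtain ⟨c, hc0, hc1, hc⟩ := hT.exists_contraction S h1 hS
  obtain ⟨K₀, _, _, _, π, j, ξ, hj, htot⟩ := exists_rep κ hgram
  obtain ⟨ξ₀, ξ₁, hsum, hinv, hξ₀, hξ₁, hdec⟩ := exists_split π S hc0 hc ξ
  have hn : (0 : ℝ) < S.card := by exact_mod_cast Finset.card_pos.2 ⟨1, h1⟩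
  set φ : Γ → ℝ := fun g => RCLike.re ⟪κ g, κ 1⟫_ℂ with hφ
  have hφπ : ∀ g, φ g = RCLike.re ⟪(π g : K₀ →L[ℂ] K₀) ξ, ξ⟫_ℂ := by
    intro g
    simp only [hφ]
    rw [← hj, ← hj 1, j.inner_map_map, rep_one_apply]
  have hinner : ∀ g, RCLike.re ⟪ξ₀, (π g : K₀ →L[ℂ] K₀) ξ⟫_ℂ = ‖ξ₀‖ ^ 2 := by
    intro g
    rw [rep_inner_right, hinv, hξ₀]
    exact Complex.ofReal_re _
  -- the key estimate
  have key : ∀ (f f' : Γ) (k : ℕ),
      |∑ w : Fin k → S, φ (f * (List.ofFn fun i => (w i : Γ)).prod * f') -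
        (S.card : ℝ) ^ k * ‖ξ₀‖ ^ 2| ≤ (S.card * c) ^ k * ‖ξ‖ ^ 2 := by
    intro f f' k
    have h2 : ∀ w : Fin k → S, φ (f * (List.ofFn fun i => (w i : Γ)).prod * f') - ‖ξ₀‖ ^ 2 =
        RCLike.re ⟪(π (List.ofFn fun i => (w i : Γ)).prod : K₀ →L[ℂ] K₀)
          ((π f' : K₀ →L[ℂ] K₀) ξ₁), (π f⁻¹ : K₀ →L[ℂ] K₀) ξ⟫_ℂ := by
      intro w
      rw [hφπ, rep_mul_apply, rep_mul_apply, rep_inner_left, ← hinner f⁻¹, ← map_sub,
        ← inner_sub_left]
      congr 2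
      rw [hsum, map_add, map_add, hinv, hinv, add_sub_cancel_left]
    have h3 : ∑ w : Fin k → S, φ (f * (List.ofFn fun i => (w i : Γ)).prod * f') -
        (S.card : ℝ) ^ k * ‖ξ₀‖ ^ 2 =
        ∑ w : Fin k → S, (φ (f * (List.ofFn fun i => (w i : Γ)).prod * f') - ‖ξ₀‖ ^ 2) := by
      rw [Finset.sum_sub_distrib]
      simp
    rw [h3]
    simp only [h2]
    rw [← map_sum, ← sum_inner]
    refine (RCLike.abs_re_le_norm _).trans ((norm_inner_le_norm _ _).trans ?_)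
    rw [rep_norm]
    calc _ ≤ (S.card * c) ^ k * ‖ξ₁‖ * ‖ξ‖ := by
          gcongr
          exact hdec f' k
      _ ≤ (S.card * c) ^ k * ‖ξ‖ * ‖ξ‖ := by gcongr
      _ = (S.card * c) ^ k * ‖ξ‖ ^ 2 := by ring
  -- `ξ₀ ≠ 0`
  have hpos : 0 < ‖ξ₀‖ ^ 2 := by
    by_contra hcon
    have hz : ‖ξ₀‖ ^ 2 = 0 := le_antisymm (not_lt.1 hcon) (by positivity)
    have h2 : ∀ k : ℕ, ε ≤ (F.card : ℝ) ^ 2 * ‖ξ‖ ^ 2 * c ^ k := by
      intro k
      have h3 : ∀ w : Fin k → S, ε ≤ ∑ f ∈ F, ∑ f' ∈ F,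
          φ (f * (List.ofFn fun i => (w i : Γ)).prod * f') := by
        intro w
        obtain ⟨f, hf, f', hf', hff⟩ := hF (List.ofFn fun i => (w i : Γ)).prod
        refine hff.trans ?_
        refine le_trans ?_ (Finset.single_le_sum (f := fun f => ∑ f' ∈ F,
          φ (f * (List.ofFn fun i => (w i : Γ)).prod * f'))
          (fun _ _ => Finset.sum_nonneg fun _ _ => hre _ _) hf)
        exact Finset.single_le_sum (f := fun f' =>
          φ (f * (List.ofFn fun i => (w i : Γ)).prod * f')) (fun _ _ => hre _ _) hf'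
      have h4 : (S.card : ℝ) ^ k * ε ≤ ∑ f ∈ F, ∑ f' ∈ F, (S.card * c) ^ k * ‖ξ‖ ^ 2 := by
        calc (S.card : ℝ) ^ k * ε = ∑ _w : Fin k → S, ε := by simp
          _ ≤ ∑ w : Fin k → S, ∑ f ∈ F, ∑ f' ∈ F,
              φ (f * (List.ofFn fun i => (w i : Γ)).prod * f') :=
              Finset.sum_le_sum fun w _ => h3 w
          _ = ∑ f ∈ F, ∑ f' ∈ F, ∑ w : Fin k → S,
              φ (f * (List.ofFn fun i => (w i : Γ)).prod * f') := by
              rw [Finset.sum_comm]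
              exact Finset.sum_congr rfl fun f _ => Finset.sum_comm
          _ ≤ ∑ f ∈ F, ∑ f' ∈ F, (S.card * c) ^ k * ‖ξ‖ ^ 2 := by
              refine Finset.sum_le_sum fun f _ => Finset.sum_le_sum fun f' _ => ?_
              have h5 := (abs_le.1 (key f f' k)).2
              rw [hz, mul_zero, sub_zero] at h5
              exact h5
      simp only [Finset.sum_const, nsmul_eq_mul] at h4
      have h6 : (0 : ℝ) < (S.card : ℝ) ^ k := by positivity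
      refine le_of_mul_le_mul_left (h4.trans (le_of_eq ?_)) h6
      rw [mul_pow]
      ring
    exact absurd (le_zero_of_le_mul_pow hc0 hc1 h2) (not_le.2 hε)
  -- the lower bound for large `k`
  have h8 : ∀ k : ℕ, (S.card : ℝ) ^ k * (‖ξ₀‖ ^ 2 - ‖ξ‖ ^ 2 * c ^ k) ≤
      ∑ w : Fin k → S, φ (List.ofFn fun i => (w i : Γ)).prod := by
    intro k
    have h9 := (abs_le.1 (key 1 1 k)).1
    simp only [one_mul, mul_one] at h9
    have h10 : (S.card * c) ^ k * ‖ξ‖ ^ 2 = (S.card : ℝ) ^ k * (‖ξ‖ ^ 2 * c ^ k) := by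
      rw [mul_pow]; ring
    rw [h10] at h9
    linarith
  have hφnn : ∀ g, 0 ≤ φ g := fun g => hre g 1
  have h11 : ∀ k : ℕ, φ 1 ≤ ∑ w : Fin k → S, φ (List.ofFn fun i => (w i : Γ)).prod := by
    intro k
    refine le_trans (le_of_eq ?_) (Finset.single_le_sum
      (f := fun w : Fin k → S => φ (List.ofFn fun i => (w i : Γ)).prod)
      (fun _ _ => hφnn _) (Finset.mem_univ fun _ => ⟨1, h1⟩))
    congr 1
    simp
  have hφ1 : φ 1 = ‖ξ‖ ^ 2 := by
    rw [hφπ, rep_one_apply]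
    exact inner_self_eq_norm_sq (𝕜 := ℂ) ξ
  have hξpos : 0 < ‖ξ‖ ^ 2 := by
    have h12 : ξ ≠ 0 := by
      intro h
      rw [h, inner_zero_right] at hξ₀
      exact hpos.ne' (by exact_mod_cast hξ₀.symm)
    have := norm_pos_iff.2 h12
    positivity
  have hS1 : (1 : ℝ) ≤ S.card := by exact_mod_cast Finset.card_pos.2 ⟨1, h1⟩
  obtain ⟨r, hr0, h13⟩ := exists_lower_real hc0 hc1 hS1 hpos hξpos
    (A := fun k => ∑ w : Fin k → S, φ (List.ofFn fun i => (w i : Γ)).prod) h8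
    (fun k => hφ1 ▸ h11 k)
  refine ⟨ENNReal.ofReal r, (ENNReal.ofReal_pos.2 hr0).ne', fun k => ?_⟩
  have hcard : (S.card : ℝ≥0∞) = ENNReal.ofReal (S.card : ℝ) := by
    rw [ENNReal.ofReal_natCast]
  rw [walkAvg, ENNReal.le_div_iff_mul_le (Or.inl (by
    rw [hcard, ← ENNReal.ofReal_pow hn.le]
    exact (ENNReal.ofReal_pos.2 (by positivity)).ne')) (Or.inl (by finiteness)),
    hcard, ← ENNReal.ofReal_pow hn.le, ← ENNReal.ofReal_mul hr0.le,
    ← ENNReal.ofReal_sum_of_nonneg fun w _ => hφnn _]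
  refine ENNReal.ofReal_le_ofReal ?_
  rw [mul_comm]
  exact h13 k

end

end Vale.Agent.P092
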