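import Vale.Agent.P092.H418.CanLower
import Vale.Agent.P092.H418.Excl
import Vale.Agent.P092.H184.AmpTrace
import Vale.Agent.P092.H414.Main

/-!
# Canonical isomorphisms: the averages do not decay
-/

namespace Vale.Agent.P092

open scoped InnerProductSpace ENNReal ComplexConjugate
open ContinuousLinearMap InnerProductSpace

noncomputable section

/-- The abstract lower bound for the averages. -/
theorem PropertyT.abstract_lower {Γ : Type} [Group Γ] [Countable Γ] (hT : PropertyT Γ)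
    (S : Finset Γ) (h1 : (1 : Γ) ∈ S) (hS : Subgroup.closure (S : Set Γ) = ⊤)
    {Λ α ι H : Type} [Group Λ] [Fintype α] [NormedAddCommGroup H]
    [InnerProductSpace ℂ H] [CompleteSpace H] (b : HilbertBasis ι ℂ H)
    (U : Γ →* unitary (H →L[ℂ] H)) (V : Λ →* unitary (H →L[ℂ] H))
    (hUV : ∀ g s, Commute (U g : H →L[ℂ] H) (V s : H →L[ℂ] H)) (a : α → H) (ha : IsBFrame V a)
    (htot : ∀ v : H, (∀ g i, ⟪(U g : H →L[ℂ] H) (a i), v⟫_ℂ = 0) → v = 0)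
    (F : Finset Γ) {ε : ℝ} (hε : 0 < ε)
    (hF : ∀ g, ∃ f ∈ F, ∃ f' ∈ F, ENNReal.ofReal ε ≤ phi4 U V a (f * g * f')) :
    ∃ ε' : ℝ≥0∞, ε' ≠ 0 ∧ ∀ k, ε' ≤ walkAvg S k (phi4 U V a) := by
  obtain ⟨e, he⟩ : ∃ e : Γ × α → H, IsFrame V e := by
    refine exists_isFrame V (fun p : Γ × α => (U p.1 : H →L[ℂ] H) (a p.2)) (fun p => ?_) ?_
    · exact (ha.translate hUV p.1).single p.2
    · intro v hv
      refine htot v fun g i => ?_
      have h2 := hv (g, i) 1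
      rw [rep_one_apply] at h2
      exact h2
  have hphi : ∀ g, ENNReal.ofReal (RCLike.re ⟪kap b hUV ha he g, kap b hUV ha he 1⟫_ℂ)
      = phi4 U V a g := by
    intro g
    rw [ofReal_re_inner_kap, phi4]
    refine Finset.sum_congr rfl fun i _ => tsum_congr fun q => ?_
    rw [rep_one_apply]
  obtain ⟨ε', hε', hlow⟩ := hT.walkAvg_lower S h1 hS (kap b hUV ha he)
    (inner_kap_translate b hUV ha he) (re_inner_kap_nonneg b hUV ha he) F hε (fun g => by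
      obtain ⟨f, hf, f', hf', hff⟩ := hF g
      refine ⟨f, hf, f', hf', ?_⟩
      rw [← ENNReal.ofReal_le_ofReal_iff (re_inner_kap_nonneg b hUV ha he _ _), hphi]
      exact hff)
  simp only [hphi] at hlow
  exact ⟨ε', hε', hlow⟩

/-- For a group with property (T), the averages of the fourth power sums of a canonical
isomorphism are bounded below. -/
theorem AmpIso.IsCanonical.walkAvg_lower {Γ Λ : Type} [Group Γ] [Group Λ] [Countable Γ]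
    (hT : PropertyT Γ) (S : Finset Γ) (h1 : (1 : Γ) ∈ S)
    (hS : Subgroup.closure (S : Set Γ) = ⊤) (hΛ : IsICC Λ) {n : ℕ} {Φ : AmpIso Γ Λ n}
    (hcan : Φ.IsCanonical) : ∃ ε : ℝ≥0∞, ε ≠ 0 ∧ ∀ k, ε ≤ walkAvg S k Φ.fourth := by
  obtain ⟨t, ht, htr⟩ := Φ.exists_trace hΛ
  obtain ⟨ι, b, -⟩ := exists_hilbertBasis ℂ Φ.HH
  have hn : 0 < n := by
    rcases Nat.eq_zero_or_pos n with hn | hn
    · subst hn
      exfalso
      have h2 := htr 1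
      rw [tau] at h2
      have h3 : ((1 : LG Λ) : ell2 Λ →L[ℂ] ell2 Λ) (delta 1) = delta 1 := rfl
      rw [h3, inner_delta, delta_apply_self, mul_one] at h2
      simp at h2
      exact ht.ne' (by exact_mod_cast h2.symm)
    · exact hn
  have hr : (0 : ℝ) < (√(t * n))⁻¹ := by
    have : (0 : ℝ) < n := by exact_mod_cast hn
    positivity
  have ha := Φ.isBFrame_zv ht htr
  generalize (√(t * n))⁻¹ = r at hr ha
  have hrc : ((r : ℝ) : ℂ) ≠ 0 := by exact_mod_cast hr.ne'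
  have hre0 : ‖(r : ℂ)‖ₑ ^ 8 ≠ 0 := pow_ne_zero _ (by simpa using hrc)
  have hre' : ‖(r : ℂ)‖ₑ ^ 8 ≠ ∞ := by finiteness
  have htot : ∀ v : Φ.HH, (∀ g i, ⟪(Φ.Urep g : Φ.HH →L[ℂ] Φ.HH) ((r : ℂ) • Φ.zv i), v⟫_ℂ = 0) →
      v = 0 := by
    intro v hv
    refine Φ.eq_zero_of_inner_zv fun g i => ?_
    have h2 := hv g i
    have h3 : (Φ.Urep g : Φ.HH →L[ℂ] Φ.HH) ((r : ℂ) • Φ.zv i)
        = (r : ℂ) • (Φ.Urep g : Φ.HH →L[ℂ] Φ.HH) (Φ.zv i) :=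
      (Φ.Urep g : Φ.HH →L[ℂ] Φ.HH).map_smul _ _
    rw [h3] at h2
    exact inner_eq_zero_of_smul hrc ((Φ.Urep g : Φ.HH →L[ℂ] Φ.HH) (Φ.zv i)) v h2
  obtain ⟨F, ε, hε, hF⟩ := hcan.exists_lower
  have hr8 : ‖(r : ℂ)‖ₑ ^ 8 = ENNReal.ofReal (r ^ 8) := by
    rw [ENNReal.ofReal_pow hr.le, ← ofReal_norm, Complex.norm_real, Real.norm_of_nonneg hr.le]
  have hphi : phi4 Φ.Urep Φ.Vrep (fun i => (r : ℂ) • Φ.zv i)
        = fun g => ‖(r : ℂ)‖ₑ ^ 8 * Φ.fourth g := funext fun g => Φ.phi4_eq r g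
  obtain ⟨ε', hε', hlow⟩ := hT.abstract_lower S h1 hS b Φ.Urep Φ.Vrep Φ.commute_U_V
    (fun i => (r : ℂ) • Φ.zv i) ha htot F (ε := r ^ 8 * ε) (by positivity) (fun g => by
      obtain ⟨f, hf, f', hf', hff⟩ := hF g
      refine ⟨f, hf, f', hf', ?_⟩
      rw [hphi, ENNReal.ofReal_mul (by positivity), ← hr8]
      exact mul_le_mul' le_rfl hff)
  refine ⟨ε' / ‖(r : ℂ)‖ₑ ^ 8, (ENNReal.div_pos hε' hre').ne', fun k => ?_⟩
  have h2 := hlow k
  rw [hphi, walkAvg_mul_left] at h2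
  exact ENNReal.div_le_of_le_mul' h2

/-- **The exclusive dichotomy.** -/
theorem PropertyT.ampIso_exclusive {Γ : Type} [Group Γ] [Countable Γ] (hicc : IsICC Γ)
    (hT : PropertyT Γ) (S : Finset Γ) (h1 : (1 : Γ) ∈ S)
    (hS : Subgroup.closure (S : Set Γ) = ⊤) :
    ∃ c : ℝ≥0∞, c < 1 ∧ ∀ (Λ : Type) [Group Λ] (_ : IsICC Λ) (n : ℕ) (Φ : AmpIso Γ Λ n),
      (Φ.IsCanonical ∧ ∃ ε : ℝ≥0∞, ε ≠ 0 ∧ ∀ k, ε ≤ walkAvg S k Φ.fourth) ∨
      (¬ Φ.IsCanonical ∧ ∀ k, walkAvg S k Φ.fourth ≤ c ^ k * Φ.fourth 1) := by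
  obtain ⟨c, hc, hd⟩ := hT.ampIso_dichotomy hicc S h1 hS
  refine ⟨c, hc, ?_⟩
  intro Λ _ hΛ n Φ
  by_cases hcan : Φ.IsCanonical
  · exact Or.inl ⟨hcan, hcan.walkAvg_lower hT S h1 hS hΛ⟩
  · refine Or.inr ⟨hcan, ?_⟩
    rcases hd Λ hΛ n Φ with h | h
    · exact absurd h hcan
    · exact h

end

end Vale.Agent.P092
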