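import Vale.Agent.P092.H414.Step3

/-!
# Step 5: the range of `E` is a maximal commutative `*`-closed family

From the Kraus facts about a Hilbert basis `(X_j)` of the range of `E`.
-/

namespace Vale.Agent.P092

open scoped InnerProductSpace ENNReal ComplexConjugate
open ContinuousLinearMap InnerProductSpace

noncomputable section

variable {ι m : Type} {H : Type} [NormedAddCommGroup H] [InnerProductSpace ℂ H] [CompleteSpace H]
  (b : HilbertBasis ι ℂ H)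

theorem enorm_rmul (A : H →L[ℂ] H) (Z : HS ι H) :
    ‖rmul b A Z‖ₑ = ‖lmul (adjoint A) (adj b Z)‖ₑ := by
  rw [rmul_eq, ← ofReal_norm, LinearIsometryEquiv.norm_map, ofReal_norm]

theorem tsum_lmul (X : m → HS ι H) (hright : ∀ v, ∑' j, ‖op b (X j) v‖ₑ ^ 2 = ‖v‖ₑ ^ 2)
    (Z : HS ι H) : ∑' j, ‖lmul (op b (X j)) Z‖ₑ ^ 2 = ‖Z‖ₑ ^ 2 := by
  calc ∑' j, ‖lmul (op b (X j)) Z‖ₑ ^ 2
      = ∑' j, ∑' i, ‖op b (X j) (Z i)‖ₑ ^ 2 := tsum_congr fun j => (lp_enorm_sq _).symm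
    _ = ∑' i, ∑' j, ‖op b (X j) (Z i)‖ₑ ^ 2 := ENNReal.tsum_comm
    _ = ∑' i, ‖Z i‖ₑ ^ 2 := tsum_congr fun i => hright _
    _ = ‖Z‖ₑ ^ 2 := lp_enorm_sq Z

theorem tsum_rmul (X : m → HS ι H)
    (hleft : ∀ v, ∑' j, ‖adjoint (op b (X j)) v‖ₑ ^ 2 = ‖v‖ₑ ^ 2)
    (Z : HS ι H) : ∑' j, ‖rmul b (op b (X j)) Z‖ₑ ^ 2 = ‖Z‖ₑ ^ 2 := by
  calc ∑' j, ‖rmul b (op b (X j)) Z‖ₑ ^ 2
      = ∑' j, ‖lmul (adjoint (op b (X j))) (adj b Z)‖ₑ ^ 2 :=
        tsum_congr fun j => by rw [enorm_rmul]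
    _ = ∑' j, ∑' i, ‖adjoint (op b (X j)) (adj b Z i)‖ₑ ^ 2 :=
        tsum_congr fun j => (lp_enorm_sq _).symm
    _ = ∑' i, ∑' j, ‖adjoint (op b (X j)) (adj b Z i)‖ₑ ^ 2 := ENNReal.tsum_comm
    _ = ∑' i, ‖adj b Z i‖ₑ ^ 2 := tsum_congr fun i => hleft _
    _ = ‖adj b Z‖ₑ ^ 2 := lp_enorm_sq _
    _ = ‖Z‖ₑ ^ 2 := by rw [← ofReal_norm, LinearIsometryEquiv.norm_map, ofReal_norm]

/-- `⟪W, E Z⟫ = ∑ ⟪X_j W, Z X_j⟫`, and the consequences: `E Z = Z` iff `Z` commutes with all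
`X_j`. -/
theorem fixed_iff_commute (E : HS ι H →L[ℂ] HS ι H)
    (hsymm : ∀ v w v' w' : H,
      ⟪ten b v' w', E (ten b v w)⟫_ℂ = ⟪ten b w w', E (ten b v v')⟫_ℂ)
    (X : m → HS ι H)
    (hexp : ∀ Z, HasSum (fun j => ⟪X j, Z⟫_ℂ • X j) (E Z))
    (hleft : ∀ v, ∑' j, ‖adjoint (op b (X j)) v‖ₑ ^ 2 = ‖v‖ₑ ^ 2)
    (hright : ∀ v, ∑' j, ‖op b (X j) v‖ₑ ^ 2 = ‖v‖ₑ ^ 2) (Z : HS ι H) :
    E Z = Z ↔ ∀ j, lmul (op b (X j)) Z = rmul b (op b (X j)) Z := by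
  have hL : ∀ Z : HS ι H, ∑' j, ‖(fun j => lmul (ι := ι) (op b (X j))) j Z‖ₑ ^ 2
      ≤ ENNReal.ofReal 1 ^ 2 * ‖Z‖ₑ ^ 2 := fun Z => by
    simpa using (tsum_lmul b X hright Z).le
  have hR : ∀ Z : HS ι H, ∑' j, ‖(fun j => rmul b (op b (X j))) j Z‖ₑ ^ 2
      ≤ ENNReal.ofReal 1 ^ 2 * ‖Z‖ₑ ^ 2 := fun Z => by
    simpa using (tsum_rmul b X hleft Z).le
  let L := familyOp (fun j => lmul (ι := ι) (op b (X j))) 1 zero_le_one hL
  let R := familyOp (fun j => rmul b (op b (X j))) 1 zero_le_one hR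
  have hLn : ∀ Z, ‖L Z‖ = ‖Z‖ := by
    intro Z
    have h1 : ‖L Z‖ₑ ^ 2 = ‖Z‖ₑ ^ 2 := by
      rw [← lp_enorm_sq]
      exact tsum_lmul b X hright Z
    apply le_antisymm
    · exact norm_le_of_enorm_sq_le (norm_nonneg _) (by rw [ofReal_norm, h1])
    · exact norm_le_of_enorm_sq_le (norm_nonneg _) (by rw [ofReal_norm, h1])
  have hRn : ∀ Z, ‖R Z‖ = ‖Z‖ := by
    intro Z
    have h1 : ‖R Z‖ₑ ^ 2 = ‖Z‖ₑ ^ 2 := by
      rw [← lp_enorm_sq]
      exact tsum_rmul b X hleft Z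
    apply le_antisymm
    · exact norm_le_of_enorm_sq_le (norm_nonneg _) (by rw [ofReal_norm, h1])
    · exact norm_le_of_enorm_sq_le (norm_nonneg _) (by rw [ofReal_norm, h1])
  have hLR : adjoint L ∘L R = E := by
    refine clm_ext_inner_ten b fun v w v' w' => ?_
    rw [comp_apply, adjoint_inner_right, lp.inner_eq_tsum]
    have h1 : ⟪ten b v w, E (ten b v' w')⟫_ℂ = ⟪ten b w' w, E (ten b v' v)⟫_ℂ := hsymm v' w' v w
    have h2 : HasSum (fun j => ⟪ten b w' w, ⟪X j, ten b v' v⟫_ℂ • X j⟫_ℂ)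
        ⟪ten b w' w, E (ten b v' v)⟫_ℂ := (hexp (ten b v' v)).mapL (innerSL ℂ (ten b w' w))
    rw [h1, ← h2.tsum_eq]
    refine tsum_congr fun j => ?_
    change ⟪lmul (op b (X j)) (ten b v w), rmul b (op b (X j)) (ten b v' w')⟫_ℂ = _
    rw [lmul_ten, rmul_ten, inner_ten_ten, inner_smul_right, inner_ten_left, inner_ten_right,
      adjoint_inner_left]
  have hin : ∀ W Z, ⟪L W, R Z⟫_ℂ = ⟪W, E Z⟫_ℂ := by
    intro W Z
    rw [← hLR, comp_apply, adjoint_inner_right]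
  constructor
  · intro hZ j
    have h1 : L Z = R Z := by
      rw [← sub_eq_zero, ← norm_eq_zero]
      have h2 := @norm_sub_sq ℂ _ _ _ _ (L Z) (R Z)
      rw [hin, hZ, hLn, hRn, inner_self_eq_norm_sq (𝕜 := ℂ)] at h2
      have h3 : ‖L Z - R Z‖ ^ 2 = 0 := by rw [h2]; ring
      exact pow_eq_zero_iff two_ne_zero |>.1 h3
    have h4 := congrArg (fun f : lp (fun _ : m => HS ι H) 2 => f j) h1
    exact h4
  · intro hZ
    have h1 : L Z = R Z := by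
      ext1
      funext j
      exact hZ j
    refine ext_inner_left ℂ fun W => ?_
    rw [← hin, ← h1]
    have h2 : adjoint L ∘L L = 1 := by
      have := (ContinuousLinearMap.norm_map_iff_adjoint_comp_self L).1 hLn
      exact this
    rw [← adjoint_inner_right, ← comp_apply, h2]
    rfl

theorem inner_adj_ten (v w : H) (Z : HS ι H) :
    ⟪ten b v w, adj b Z⟫_ℂ = ⟪Z, ten b w v⟫_ℂ := by
  rw [inner_ten_left, op_adj, adjoint_inner_right, inner_ten_right]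

theorem inner_adj_left (A Z : HS ι H) : ⟪adj b Z, A⟫_ℂ = ⟪adj b A, Z⟫_ℂ := by
  have hcl : IsClosed {A : HS ι H | ⟪adj b Z, A⟫_ℂ = ⟪adj b A, Z⟫_ℂ} := by
    refine isClosed_eq ?_ ?_
    · exact continuous_const.inner continuous_id
    · exact ((adj b).continuous).inner continuous_const
  have hsub : ((Submodule.span ℂ (Set.range fun p : H × H => ten b p.1 p.2) :
      Submodule ℂ (HS ι H)) : Set (HS ι H)) ⊆ {A | ⟪adj b Z, A⟫_ℂ = ⟪adj b A, Z⟫_ℂ} := by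
    intro A hA
    induction hA using Submodule.span_induction with
    | mem x hx =>
      obtain ⟨⟨v, w⟩, rfl⟩ := hx
      simp only [Set.mem_ofPred_eq]
      rw [adj_ten, ← inner_conj_symm, inner_adj_ten, inner_conj_symm]
    | zero => simp
    | add x y _ _ hx hy =>
      simp only [Set.mem_ofPred_eq] at hx hy ⊢
      rw [inner_add_right, hx, hy, map_add, inner_add_left]
    | smul c x _ hx =>
      simp only [Set.mem_ofPred_eq] at hx ⊢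
      rw [inner_smul_right, hx, map_smulₛₗ, inner_smul_left]
      simp
  have htop := dense_span_ten b
  have hA : A ∈ closure ((Submodule.span ℂ (Set.range fun p : H × H => ten b p.1 p.2) :
      Submodule ℂ (HS ι H)) : Set (HS ι H)) := by
    rw [← Submodule.topologicalClosure_coe, htop]
    trivial
  exact (closure_minimal hsub hcl) hA

/-- A self-adjoint `E` with the partial symmetry commutes with the adjoint. -/
theorem comm_adj (E : HS ι H →L[ℂ] HS ι H) (hsa : adjoint E = E)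
    (hsymm : ∀ v w v' w' : H,
      ⟪ten b v' w', E (ten b v w)⟫_ℂ = ⟪ten b w w', E (ten b v v')⟫_ℂ) (Z : HS ι H) :
    E (adj b Z) = adj b (E Z) := by
  have hE : ∀ A B : HS ι H, ⟪A, E B⟫_ℂ = ⟪E A, B⟫_ℂ := fun A B => by
    conv_lhs => rw [← hsa]
    rw [adjoint_inner_right]
  have h1 : ∀ v w, adj b (E (ten b v w)) = E (ten b w v) := by
    intro v w
    rw [← sub_eq_zero]
    refine eq_zero_of_inner_ten b _ fun v' w' => ?_
    rw [inner_sub_right, sub_eq_zero, inner_adj_ten, ← hE]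
    -- ⟪ten v w, E (ten w' v')⟫ = ⟪ten v' w', E (ten w v)⟫
    rw [hsymm w' v' v w]
    -- ⟪ten v' w, E (ten w' v)⟫
    rw [← inner_conj_symm, ← hE, hsymm v' w w' v, hE, inner_conj_symm]
  have h3 : E (adj b Z) - adj b (E Z) = 0 := by
    refine eq_zero_of_inner_ten b _ fun v w => ?_
    rw [inner_sub_right, sub_eq_zero]
    calc ⟪ten b v w, E (adj b Z)⟫_ℂ = ⟪E (ten b v w), adj b Z⟫_ℂ := hE _ _
      _ = conj ⟪adj b Z, E (ten b v w)⟫_ℂ := (inner_conj_symm _ _).symm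
      _ = conj ⟪adj b (E (ten b v w)), Z⟫_ℂ := by rw [inner_adj_left]
      _ = ⟪Z, E (ten b w v)⟫_ℂ := by rw [h1, inner_conj_symm]
      _ = ⟪E Z, ten b w v⟫_ℂ := hE _ _
      _ = ⟪ten b v w, adj b (E Z)⟫_ℂ := (inner_adj_ten b v w (E Z)).symm
  exact sub_eq_zero.1 h3

/-- Two elements of the range of `E` commute. -/
theorem commute_of_fixed (E : HS ι H →L[ℂ] HS ι H)
    (hsymm : ∀ v w v' w' : H,
      ⟪ten b v' w', E (ten b v w)⟫_ℂ = ⟪ten b w w', E (ten b v v')⟫_ℂ)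
    (X : m → HS ι H)
    (hexp : ∀ Z, HasSum (fun j => ⟪X j, Z⟫_ℂ • X j) (E Z))
    (hleft : ∀ v, ∑' j, ‖adjoint (op b (X j)) v‖ₑ ^ 2 = ‖v‖ₑ ^ 2)
    (hright : ∀ v, ∑' j, ‖op b (X j) v‖ₑ ^ 2 = ‖v‖ₑ ^ 2) {W Z : HS ι H}
    (hW : E W = W) (hZ : E Z = Z) (v : H) :
    op b W (op b Z v) = op b Z (op b W v) := by
  have h1 := (fixed_iff_commute b E hsymm X hexp hleft hright Z).1 hZ
  have h2 := hexp W
  rw [hW] at h2
  have h3 := h2.mapL (rmul b (op b Z))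
  have h4 := h2.mapL (lmul (ι := ι) (op b Z))
  have h5 : ∀ j, rmul b (op b Z) (⟪X j, W⟫_ℂ • X j) = lmul (op b Z) (⟪X j, W⟫_ℂ • X j) := by
    intro j
    rw [map_smul, map_smul]
    congr 1
    apply op_injective b
    have h6 := congrArg (op b) (h1 j)
    rw [op_lmul, op_rmul] at h6
    rw [op_lmul, op_rmul]
    exact h6
  simp only [h5] at h3
  have h6 := h3.unique h4
  have h7 := congrArg (fun Y => op b Y v) h6
  simpa using h7

/-- If `Z` commutes with the range of `E` it lies in it. -/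
theorem fixed_of_commute (E : HS ι H →L[ℂ] HS ι H)
    (hsymm : ∀ v w v' w' : H,
      ⟪ten b v' w', E (ten b v w)⟫_ℂ = ⟪ten b w w', E (ten b v v')⟫_ℂ)
    (X : m → HS ι H) (hmem : ∀ j, E (X j) = X j)
    (hexp : ∀ Z, HasSum (fun j => ⟪X j, Z⟫_ℂ • X j) (E Z))
    (hleft : ∀ v, ∑' j, ‖adjoint (op b (X j)) v‖ₑ ^ 2 = ‖v‖ₑ ^ 2)
    (hright : ∀ v, ∑' j, ‖op b (X j) v‖ₑ ^ 2 = ‖v‖ₑ ^ 2) {Z : HS ι H}
    (hZ : ∀ W, E W = W → op b W ∘L op b Z = op b Z ∘L op b W) : E Z = Z := by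
  refine (fixed_iff_commute b E hsymm X hexp hleft hright Z).2 fun j => ?_
  apply op_injective b
  rw [op_lmul, op_rmul]
  exact hZ _ (hmem j)

end

end Vale.Agent.P092
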