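import Vale.Agent.P092.H414.Step3
import Vale.Agent.P092.H184.Scalar

/-!
# Canonical isomorphisms: lower bound for the coefficients

If `V (σ g) z = χ g • U g⁻¹ z` for a unit vector `z`, then the coefficients
`⟪U (h g h')⁻¹ f_i, V (σ g) f_j⟫` with `h, h'` in a finite set cannot all be small.
-/

namespace Vale.Agent.P092

open scoped InnerProductSpace ENNReal ComplexConjugate
open ContinuousLinearMap InnerProductSpace

noncomputable section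

variable {Γ Λ : Type} [Group Γ] [Group Λ] {H : Type} [NormedAddCommGroup H]
  [InnerProductSpace ℂ H] [CompleteSpace H]
  {U : Γ →* unitary (H →L[ℂ] H)} {V : Λ →* unitary (H →L[ℂ] H)}

theorem exists_finsupp_near {I : Type} {a : I → H}
    (htot : ∀ v : H, (∀ i, ⟪a i, v⟫_ℂ = 0) → v = 0) (z : H) {δ : ℝ} (hδ : 0 < δ) :
    ∃ c : I →₀ ℂ, ‖z - c.sum fun i r => r • a i‖ < δ := by
  have h1 : (Submodule.span ℂ (Set.range a)).topologicalClosure = ⊤ := by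
    rw [Submodule.topologicalClosure_eq_top_iff, Submodule.eq_bot_iff]
    intro v hv
    refine htot v fun i => ?_
    exact (Submodule.mem_orthogonal _ _).1 hv _ (Submodule.subset_span ⟨i, rfl⟩)
  have h2 : z ∈ closure ((Submodule.span ℂ (Set.range a) : Submodule ℂ H) : Set H) := by
    rw [← Submodule.topologicalClosure_coe, h1]
    trivial
  obtain ⟨y, hy, hyz⟩ := Metric.mem_closure_iff.1 h2 δ hδ
  obtain ⟨c, hc⟩ := (Finsupp.mem_span_range_iff_exists_finsupp).1 hy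
  refine ⟨c, ?_⟩
  rw [hc, ← dist_eq_norm]
  exact hyz

theorem lower_bound_of_orbit {κ : Type}
    (hUV : ∀ g s, Commute (U g : H →L[ℂ] H) (V s : H →L[ℂ] H)) {f : κ → H}
    (htot : ∀ v : H, (∀ g i, ⟪(U g : H →L[ℂ] H) (f i), v⟫_ℂ = 0) → v = 0)
    {z : H} (hz : ‖z‖ = 1) {σ : Γ → Λ} {χ : Γ → ℂ} (hχ : ∀ g, ‖χ g‖ = 1)
    (hσ : ∀ g, (V (σ g) : H →L[ℂ] H) z = χ g • (U g⁻¹ : H →L[ℂ] H) z) :
    ∃ (F : Finset Γ) (ε : ℝ), 0 < ε ∧ ∀ g, ∃ h ∈ F, ∃ h' ∈ F, ∃ i j,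
      ε ≤ ‖⟪(U (h * g * h')⁻¹ : H →L[ℂ] H) (f i), (V (σ g) : H →L[ℂ] H) (f j)⟫_ℂ‖ := by
  classical
  obtain ⟨c, hc⟩ := exists_finsupp_near
    (a := fun p : κ × Γ => (U p.2 : H →L[ℂ] H) (f p.1))
    (fun v hv => htot v fun g i => hv (i, g)) z (δ := 1 / 4) (by norm_num)
  set z' : H := c.sum fun p r => r • (U p.2 : H →L[ℂ] H) (f p.1) with hz'
  set B : ℝ := ∑ p ∈ c.support, ∑ q ∈ c.support, ‖c p‖ * ‖c q‖ with hB
  have hB0 : 0 ≤ B := by positivity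
  refine ⟨c.support.image (fun p => p.2⁻¹) ∪ c.support.image (fun p => p.2), 1 / (4 * (B + 1)),
    by positivity, fun g => ?_⟩
  by_contra hcon
  push Not at hcon
  -- the main inner product has modulus one
  have h1 : ‖⟪(U g⁻¹ : H →L[ℂ] H) z, (V (σ g) : H →L[ℂ] H) z⟫_ℂ‖ = 1 := by
    rw [hσ, inner_smul_right, norm_mul, hχ, one_mul, inner_self_eq_norm_sq_to_K (𝕜 := ℂ),
      rep_norm, hz]
    simp
  have hz'n : ‖z'‖ ≤ 5 / 4 := by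
    have : ‖z'‖ ≤ ‖z‖ + ‖z - z'‖ := by
      calc ‖z'‖ = ‖z - (z - z')‖ := by rw [sub_sub_cancel]
        _ ≤ ‖z‖ + ‖z - z'‖ := norm_sub_le _ _
    rw [hz] at this
    linarith
  have h2 : ⟪(U g⁻¹ : H →L[ℂ] H) z, (V (σ g) : H →L[ℂ] H) z⟫_ℂ =
      ⟪(U g⁻¹ : H →L[ℂ] H) z', (V (σ g) : H →L[ℂ] H) z'⟫_ℂ +
      (⟪(U g⁻¹ : H →L[ℂ] H) (z - z'), (V (σ g) : H →L[ℂ] H) z⟫_ℂ +
        ⟪(U g⁻¹ : H →L[ℂ] H) z', (V (σ g) : H →L[ℂ] H) (z - z')⟫_ℂ) := by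
    rw [map_sub, map_sub, inner_sub_left, inner_sub_right]
    ring
  have h3 : ‖⟪(U g⁻¹ : H →L[ℂ] H) (z - z'), (V (σ g) : H →L[ℂ] H) z⟫_ℂ‖ ≤ 1 / 4 := by
    refine (norm_inner_le_norm _ _).trans ?_
    rw [rep_norm, rep_norm, hz, mul_one]
    exact hc.le
  have h4 : ‖⟪(U g⁻¹ : H →L[ℂ] H) z', (V (σ g) : H →L[ℂ] H) (z - z')⟫_ℂ‖ ≤ 5 / 4 * (1 / 4) := by
    refine (norm_inner_le_norm _ _).trans ?_
    rw [rep_norm, rep_norm]
    exact mul_le_mul hz'n hc.le (norm_nonneg _) (by norm_num)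
  have h5 : 1 / 3 ≤ ‖⟪(U g⁻¹ : H →L[ℂ] H) z', (V (σ g) : H →L[ℂ] H) z'⟫_ℂ‖ := by
    have h6 := norm_add_le ⟪(U g⁻¹ : H →L[ℂ] H) z', (V (σ g) : H →L[ℂ] H) z'⟫_ℂ
      (⟪(U g⁻¹ : H →L[ℂ] H) (z - z'), (V (σ g) : H →L[ℂ] H) z⟫_ℂ +
        ⟪(U g⁻¹ : H →L[ℂ] H) z', (V (σ g) : H →L[ℂ] H) (z - z')⟫_ℂ)
    rw [← h2, h1] at h6
    have h7 := norm_add_le ⟪(U g⁻¹ : H →L[ℂ] H) (z - z'), (V (σ g) : H →L[ℂ] H) z⟫_ℂ
        ⟪(U g⁻¹ : H →L[ℂ] H) z', (V (σ g) : H →L[ℂ] H) (z - z')⟫_ℂ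
    linarith
  have h6 : ⟪(U g⁻¹ : H →L[ℂ] H) z', (V (σ g) : H →L[ℂ] H) z'⟫_ℂ =
      ∑ p ∈ c.support, ∑ q ∈ c.support, (conj (c p) * c q) *
        ⟪(U (p.2⁻¹ * g * q.2)⁻¹ : H →L[ℂ] H) (f p.1), (V (σ g) : H →L[ℂ] H) (f q.1)⟫_ℂ := by
    rw [hz', Finsupp.sum, map_sum, map_sum, sum_inner]
    refine Finset.sum_congr rfl fun p _ => ?_
    rw [inner_sum]
    refine Finset.sum_congr rfl fun q _ => ?_
    rw [map_smul, map_smul, inner_smul_left, inner_smul_right, ← mul_assoc]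
    congr 1
    rw [← commute_apply (hUV q.2 (σ g)), rep_inner_right, ← rep_mul_apply, ← rep_mul_apply]
    congr 3
    simp only [mul_inv_rev, inv_inv, mul_assoc]
  have h7 : ‖⟪(U g⁻¹ : H →L[ℂ] H) z', (V (σ g) : H →L[ℂ] H) z'⟫_ℂ‖ ≤
      ∑ p ∈ c.support, ∑ q ∈ c.support, ‖c p‖ * ‖c q‖ * (1 / (4 * (B + 1))) := by
    rw [h6]
    refine (norm_sum_le _ _).trans (Finset.sum_le_sum fun p hp => ?_)
    refine (norm_sum_le _ _).trans (Finset.sum_le_sum fun q hq => ?_)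
    rw [norm_mul, norm_mul, RCLike.norm_conj]
    refine mul_le_mul_of_nonneg_left ?_ (by positivity)
    exact (hcon p.2⁻¹ (Finset.mem_union_left _ (Finset.mem_image_of_mem _ hp)) q.2
      (Finset.mem_union_right _ (Finset.mem_image_of_mem _ hq)) p.1 q.1).le
  have h8 : ∑ p ∈ c.support, ∑ q ∈ c.support, ‖c p‖ * ‖c q‖ * (1 / (4 * (B + 1))) ≤ 1 / 4 := by
    simp only [← Finset.sum_mul]
    rw [← hB, mul_one_div, div_le_div_iff₀ (by positivity) (by norm_num)]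
    linarith
  linarith

end

end Vale.Agent.P092
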