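import Vale.Agent.P092.H184.Comm
import Vale.Agent.P092.Defs

/-!
# The regular representations
-/

namespace Vale.Agent.P092

open scoped InnerProductSpace ENNReal ComplexConjugate
open ContinuousLinearMap InnerProductSpace

noncomputable section

variable {Γ : Type}

theorem delta_apply_self (g : Γ) : (delta g : ell2 Γ) g = 1 := by
  classical
  simp [delta]

theorem delta_apply_ne {g x : Γ} (h : x ≠ g) : (delta g : ell2 Γ) x = 0 := by
  simp [delta, lp.single_apply, h]

theorem inner_delta (g : Γ) (ξ : ell2 Γ) : ⟪delta g, ξ⟫_ℂ = ξ g := by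
  let _ := Classical.decEq Γ
  have h := lp.inner_single_left (𝕜 := ℂ) (G := fun _ : Γ => ℂ) g (1 : ℂ) ξ
  have h2 : ⟪delta g, ξ⟫_ℂ = ⟪(1 : ℂ), ξ g⟫_ℂ := h
  rw [h2, RCLike.inner_apply]
  simp

theorem relabel_apply {β : Type} (e : Γ ≃ β) (ξ : ell2 Γ) (y : β) :
    relabel e ξ y = ξ (e.symm y) := rfl

theorem relabel_delta {β : Type} (e : Γ ≃ β) (x : Γ) : relabel e (delta x) = delta (e x) := by
  ext y
  rw [relabel_apply]
  by_cases h : y = e x
  · subst h
    rw [e.symm_apply_apply, delta_apply_self, delta_apply_self]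
  · rw [delta_apply_ne h, delta_apply_ne]
    intro h2
    exact h (by rw [← h2, e.apply_symm_apply])

/-- The standard Hilbert basis of `ℓ²`. -/
def deltaBasis (Γ : Type) : HilbertBasis Γ ℂ (ell2 Γ) :=
  HilbertBasis.ofRepr (LinearIsometryEquiv.refl ℂ (ell2 Γ))

theorem deltaBasis_apply (g : Γ) : deltaBasis Γ g = delta g := by
  classical
  have h := (deltaBasis Γ).repr_self g
  have h2 : (deltaBasis Γ).repr (deltaBasis Γ g) = deltaBasis Γ g := rfl
  rw [← h2, h]
  ext y
  by_cases hy : y = g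
  · subst hy
    rw [delta_apply_self, lp.single_apply_self]
  · rw [delta_apply_ne hy, lp.single_apply]
    simp [hy]

variable [Group Γ]

/-- The right regular unitary: `(rreg g ξ)(x) = ξ (x g)`. -/
def rreg (g : Γ) : ell2 Γ →L[ℂ] ell2 Γ :=
  (relabel (Equiv.mulRight g⁻¹)).toContinuousLinearEquiv.toContinuousLinearMap

theorem lreg_apply (g : Γ) (ξ : ell2 Γ) (x : Γ) : lreg g ξ x = ξ (g⁻¹ * x) := rfl

theorem rreg_apply (g : Γ) (ξ : ell2 Γ) (x : Γ) : rreg g ξ x = ξ (x * g) := by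
  show ξ ((Equiv.mulRight g⁻¹).symm x) = ξ (x * g)
  simp

theorem lreg_delta (g x : Γ) : lreg g (delta x) = delta (g * x) :=
  relabel_delta (Equiv.mulLeft g) x

theorem rreg_delta (g x : Γ) : rreg g (delta x) = delta (x * g⁻¹) :=
  relabel_delta (Equiv.mulRight g⁻¹) x

theorem lreg_mul (g h : Γ) : lreg g * lreg h = lreg (g * h) := by
  ext ξ x
  show lreg g (lreg h ξ) x = _
  rw [lreg_apply, lreg_apply, lreg_apply]
  group

theorem rreg_mul (g h : Γ) : rreg g * rreg h = rreg (g * h) := by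
  ext ξ x
  show rreg g (rreg h ξ) x = _
  rw [rreg_apply, rreg_apply, rreg_apply, mul_assoc]

theorem lreg_one : lreg (1 : Γ) = 1 := by
  ext ξ x
  rw [lreg_apply]
  simp

theorem rreg_one : rreg (1 : Γ) = 1 := by
  ext ξ x
  rw [rreg_apply]
  simp

theorem lreg_rreg_comm (g h : Γ) : Commute (lreg g) (rreg h) := by
  ext ξ x
  show lreg g (rreg h ξ) x = rreg h (lreg g ξ) x
  rw [lreg_apply, rreg_apply, rreg_apply, lreg_apply, mul_assoc]

omit [Group Γ] in
theorem clm_ext_delta {K : Type} [NormedAddCommGroup K] [NormedSpace ℂ K]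
    {A B : ell2 Γ →L[ℂ] K} (h : ∀ g, A (delta g) = B (delta g)) : A = B :=
  clm_ext_basis (deltaBasis Γ) fun g => by rw [deltaBasis_apply, h]

omit [Group Γ] in
theorem eq_of_inner_delta {ξ η : ell2 Γ} (h : ∀ g, ⟪delta g, ξ⟫_ℂ = ⟪delta g, η⟫_ℂ) : ξ = η := by
  ext x
  rw [← inner_delta, ← inner_delta, h]

omit [Group Γ] in
theorem delta_inner_delta (g h : Γ) : ⟪(delta g : ell2 Γ), delta h⟫_ℂ = (delta h : ell2 Γ) g :=
  inner_delta _ _

theorem adjoint_lreg (g : Γ) : adjoint (lreg g) = lreg g⁻¹ := by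
  refine ContinuousLinearMap.ext fun ξ => ?_
  refine eq_of_inner_delta fun x => ?_
  rw [adjoint_inner_right, lreg_delta, inner_delta, inner_delta, lreg_apply, inv_inv]

theorem adjoint_rreg (g : Γ) : adjoint (rreg g) = rreg g⁻¹ := by
  refine ContinuousLinearMap.ext fun ξ => ?_
  refine eq_of_inner_delta fun x => ?_
  rw [adjoint_inner_right, rreg_delta, inner_delta, inner_delta, rreg_apply]

/-- The left regular representation. -/
def Lrep (Γ : Type) [Group Γ] : Γ →* unitary (ell2 Γ →L[ℂ] ell2 Γ) where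
  toFun g := ⟨lreg g, by
    rw [Unitary.mem_iff, ContinuousLinearMap.star_eq_adjoint, adjoint_lreg, lreg_mul, lreg_mul,
      inv_mul_cancel, mul_inv_cancel, lreg_one]
    exact ⟨rfl, rfl⟩⟩
  map_one' := Subtype.ext lreg_one
  map_mul' g h := Subtype.ext (lreg_mul g h).symm

/-- The right regular representation. -/
def Rrep (Γ : Type) [Group Γ] : Γ →* unitary (ell2 Γ →L[ℂ] ell2 Γ) where
  toFun g := ⟨rreg g, by
    rw [Unitary.mem_iff, ContinuousLinearMap.star_eq_adjoint, adjoint_rreg, rreg_mul, rreg_mul,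
      inv_mul_cancel, mul_inv_cancel, rreg_one]
    exact ⟨rfl, rfl⟩⟩
  map_one' := Subtype.ext rreg_one
  map_mul' g h := Subtype.ext (rreg_mul g h).symm

theorem Lrep_coe (g : Γ) : (Lrep Γ g : ell2 Γ →L[ℂ] ell2 Γ) = lreg g := rfl

theorem Rrep_coe (g : Γ) : (Rrep Γ g : ell2 Γ →L[ℂ] ell2 Γ) = rreg g := rfl

/-- The commutation theorem for the regular representations. -/
theorem commute_of_rreg_of_lreg (B x : ell2 Γ →L[ℂ] ell2 Γ) (hB : ∀ g, Commute B (rreg g))
    (hx : ∀ g, Commute x (lreg g)) : Commute B x := by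
  classical
  let bU : HilbertBasis Γ ℂ (ell2 Γ) := HilbertBasis.ofRepr (relabel (Equiv.inv Γ))
  have hbU : ∀ g, bU g = (Rrep Γ g : ell2 Γ →L[ℂ] ell2 Γ) (delta 1) := by
    intro g
    rw [Rrep_coe, rreg_delta, one_mul]
    have h1 : bU g = (relabel (Equiv.inv Γ)).symm (lp.single 2 g (1 : ℂ)) := by
      rw [← bU.repr_self g]
      exact (LinearIsometryEquiv.symm_apply_apply _ _).symm
    have h2 : (lp.single 2 g (1 : ℂ) : ell2 Γ) = delta g := by
      rw [← deltaBasis_apply, ← (deltaBasis Γ).repr_self g]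
      rfl
    rw [h1, h2, LinearIsometryEquiv.symm_apply_eq, relabel_delta]
    simp
  refine comm_of_bases (Rrep Γ) (Lrep Γ) (fun g s => (lreg_rreg_comm s g).symm) (delta 1) bU hbU
    (deltaBasis Γ) (fun s => ?_) B x hB hx
  rw [deltaBasis_apply, Lrep_coe, lreg_delta, mul_one]

theorem mem_LG_of_commute_rreg (B : ell2 Γ →L[ℂ] ell2 Γ) (hB : ∀ g, Commute B (rreg g)) :
    B ∈ LG Γ := by
  rw [LG, StarSubalgebra.mem_centralizer_iff]
  intro x hx
  have hx' := (StarSubalgebra.mem_centralizer_iff ℂ).1 hx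
  have h1 : ∀ g, Commute x (lreg g) := fun g => (hx' (lreg g) ⟨g, rfl⟩).1.symm
  have h2 : ∀ g, Commute (star x) (lreg g) := by
    intro g
    have h3 := (hx' (lreg g) ⟨g, rfl⟩).2
    have h4 := congrArg star h3
    simp only [star_mul, star_star] at h4
    exact h4
  exact ⟨(commute_of_rreg_of_lreg B x hB h1).symm, (commute_of_rreg_of_lreg B _ hB h2).symm⟩

theorem rreg_mem_centralizer (g : Γ) :
    rreg g ∈ StarSubalgebra.centralizer ℂ (Set.range (lreg (Γ := Γ))) := by
  rw [StarSubalgebra.mem_centralizer_iff]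
  rintro _ ⟨h, rfl⟩
  refine ⟨lreg_rreg_comm h g, ?_⟩
  rw [ContinuousLinearMap.star_eq_adjoint, adjoint_lreg]
  exact lreg_rreg_comm _ g

theorem commute_rreg_of_mem_LG {B : ell2 Γ →L[ℂ] ell2 Γ} (hB : B ∈ LG Γ) (g : Γ) :
    Commute B (rreg g) := by
  rw [LG, StarSubalgebra.mem_centralizer_iff] at hB
  exact ((hB (rreg g) (rreg_mem_centralizer g)).1).symm

theorem LG_rreg (x : LG Γ) (g : Γ) (ξ : ell2 Γ) :
    (x : ell2 Γ →L[ℂ] ell2 Γ) (rreg g ξ) = rreg g ((x : ell2 Γ →L[ℂ] ell2 Γ) ξ) :=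
  DFunLike.congr_fun (commute_rreg_of_mem_LG x.2 g).eq ξ

/-- `u_g` as a unitary of `L(Γ)`. -/
def uRep (Γ : Type) [Group Γ] : Γ →* unitary (LG Γ) where
  toFun g := ⟨u g, by
    have h1 : star (u g) = u g⁻¹ := by
      apply Subtype.ext
      show star (lreg g) = lreg g⁻¹
      rw [ContinuousLinearMap.star_eq_adjoint, adjoint_lreg]
    rw [Unitary.mem_iff, h1]
    constructor
    · apply Subtype.ext
      show lreg g⁻¹ * lreg g = 1
      rw [lreg_mul, inv_mul_cancel, lreg_one]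
    · apply Subtype.ext
      show lreg g * lreg g⁻¹ = 1
      rw [lreg_mul, mul_inv_cancel, lreg_one]⟩
  map_one' := by
    apply Subtype.ext
    apply Subtype.ext
    exact lreg_one
  map_mul' g h := by
    apply Subtype.ext
    apply Subtype.ext
    exact (lreg_mul g h).symm

theorem uRep_coe (g : Γ) : (uRep Γ g : LG Γ) = u g := rfl

theorem u_mul (g h : Γ) : u (g * h) = u g * u h := Subtype.ext (lreg_mul g h).symm

theorem u_one : u (1 : Γ) = 1 := Subtype.ext lreg_one

theorem star_u (g : Γ) : star (u g) = u g⁻¹ := by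
  apply Subtype.ext
  show star (lreg g) = lreg g⁻¹
  rw [ContinuousLinearMap.star_eq_adjoint, adjoint_lreg]

end

end Vale.Agent.P092
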